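import Crest.Agent.R192.Defs

/-!
R192/Br: calculus of brackets.  `bs g x σ v κ F = ∑' (n,i), F (g^n x i) * (κ (rotV v i + n - σ) - κ (v i + n - σ))`.
Part a: algebraic identities (no summability needed: `Equiv.tsum_eq`, `Function.Injective.tsum_eq`, `tsum_mul_left`).
Part b: local finiteness, smoothness, finite representation.  Part c: derivatives.
-/

set_option autoImplicit false

open MeasureTheory Complex Filter Topology
open scoped ContDiff

noncomputable section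

namespace Crest.Agent.R192
variable {G : Type} [Group G] {n : ℕ}

/-! ### part a -/

theorem bs_apply (g : G) (x : Fin (n + 1) → G) (σ : ℝ) (v : Fin (n + 1) → ℝ) (κ : ℝ → ℝ) (F : G → ℂ) :
    bs g x σ v κ F = ∑' p : ℤ × Fin (n + 1),
      F (g ^ p.1 * x p.2) * ((κ (rotV v p.2 + p.1 - σ) - κ (v p.2 + p.1 - σ) : ℝ) : ℂ) := rfl

theorem Bra_le {a l : Fin (n + 2)} {k : Fin (n + 1)} (h : l.val ≤ a.val) (hk : k.val = l.val) :
    proj a l = k := by
  rw [proj, if_pos (show l ≤ a from h), ← hk]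
  exact Fin.ext (Nat.mod_eq_of_lt k.isLt)

theorem Bra_gt {a l : Fin (n + 2)} {k : Fin (n + 1)} (h : a.val < l.val) (hk : k.val + 1 = l.val) :
    proj a l = k := by
  rw [proj, if_neg (not_le.2 (show a < l from h)), ← hk, Nat.add_sub_cancel]
  exact Fin.ext (Nat.mod_eq_of_lt k.isLt)

theorem Bra_last : proj (Fin.last (n + 1)) (Fin.last (n + 1)) = 0 := by
  rw [proj, if_pos le_rfl]
  exact Fin.ext (Nat.mod_self _)

theorem Bra_val (a : Fin (n + 2)) (j : Fin (n + 1)) :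
    (j.val < a.val ∧ (a.succAbove j).val = j.val) ∨ (a.val ≤ j.val ∧ (a.succAbove j).val = j.val + 1) := by
  rcases lt_or_ge j.castSucc a with h | h
  · exact Or.inl ⟨h, by rw [Fin.succAbove_of_castSucc_lt _ _ h]; rfl⟩
  · exact Or.inr ⟨h, by rw [Fin.succAbove_of_le_castSucc _ _ h]; rfl⟩

theorem Bra_zero (a : Fin (n + 2)) (v : Fin (n + 1) → ℝ) : faceV a v 0 = v 0 := by
  rw [faceV, Bra_le (k := 0) (Nat.zero_le _) rfl, if_neg fun h => (Fin.last_pos.ne h.1), add_zero]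

theorem Bra_succ {m : ℕ} {l : Fin (m + 1)} (h : l ≠ Fin.last m) : (l + 1).val = l.val + 1 :=
  Fin.val_add_one_of_lt (Fin.lt_last_iff_ne_last.2 h)

theorem faceV_succAbove (a : Fin (n + 2)) (v : Fin (n + 1) → ℝ) (j : Fin (n + 1)) :
    faceV a v (a.succAbove j) = v j := by
  have h : proj a (a.succAbove j) = j := by
    rcases Bra_val a j with ⟨h1, h2⟩ | ⟨h1, h2⟩
    · exact Bra_le (by omega) h2.symm
    · exact Bra_gt (by omega) h2.symm
  rw [faceV, h, if_neg fun h => Fin.succAbove_ne a j (h.1.trans h.2.symm), add_zero]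

theorem rotV_faceV_succAbove (a : Fin (n + 2)) (v : Fin (n + 1) → ℝ) (j : Fin (n + 1)) :
    rotV (faceV a v) (a.succAbove j) = rotV v j := by
  have hv := Bra_val a j
  have hj := j.isLt
  have ha := a.isLt
  unfold rotV
  by_cases h : a.succAbove j = Fin.last (n + 1)
  · have h1 : (a.succAbove j).val = n + 1 := congrArg Fin.val h
    rw [if_pos h, if_pos (Fin.ext (show j.val = n by omega)), Bra_zero]
  · have h1 := Bra_succ h
    have h2 : (a.succAbove j).val ≠ n + 1 := fun e => h (Fin.ext e)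
    rw [if_neg h]
    by_cases hl : j = Fin.last n
    · have h3 : j.val = n := congrArg Fin.val hl
      have h4 : a = Fin.last (n + 1) := Fin.ext (show a.val = n + 1 by omega)
      have h5 : a.succAbove j + 1 = Fin.last (n + 1) :=
        Fin.ext (show (a.succAbove j + 1).val = n + 1 by omega)
      rw [if_pos hl, h5, faceV, if_pos ⟨rfl, h4⟩, h4, Bra_last]
    · have h3 := Bra_succ hl
      have h4 : j.val ≠ n := fun e => hl (Fin.ext e)
      have h5 : proj a (a.succAbove j + 1) = j + 1 := by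
        rcases hv with ⟨h6, h7⟩ | ⟨h6, h7⟩
        · exact Bra_le (by rw [h1, h7]; exact h6) (by rw [h1, h3, h7])
        · exact Bra_gt (by rw [h1, h7]; exact Nat.lt_succ_of_le (Nat.le_succ_of_le h6)) (by rw [h1, h3, h7])
      rw [if_neg hl, faceV, h5, if_neg, add_zero]
      rintro ⟨e1, e2⟩
      have e3 : (a.succAbove j + 1).val = n + 1 := congrArg Fin.val e1
      have e4 : a.val = n + 1 := congrArg Fin.val e2
      omega

theorem rotV_faceV_self (a : Fin (n + 2)) (v : Fin (n + 1) → ℝ) : rotV (faceV a v) a = faceV a v a := by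
  unfold rotV
  by_cases h : a = Fin.last (n + 1)
  · rw [if_pos h, Bra_zero, faceV, if_pos ⟨h, h⟩, h, Bra_last]
  · have h1 := Bra_succ h
    have h2 : a.val < n + 1 := Fin.lt_last_iff_ne_last.2 h
    rw [if_neg h, faceV, faceV, if_neg fun e => h e.2, if_neg fun e => h e.2,
      Bra_gt (k := ⟨a.val, h2⟩) (by rw [h1]; exact Nat.lt_succ_self _) h1.symm, Bra_le (k := ⟨a.val, h2⟩) le_rfl rfl]

/-- `Function.Injective.tsum_eq` for `(n,j) ↦ (n, a.succAbove j)`; the terms `(n,a)` vanish. -/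
theorem br_face (g : G) (a : Fin (n + 2)) (x : Fin (n + 2) → G) (v : Fin (n + 1) → ℝ) :
    br g x (faceV a v) = br g (faceX a x) v := by
  funext κ F
  unfold br
  have hi : Function.Injective fun p : ℤ × Fin (n + 1) => (p.1, a.succAbove p.2) :=
    Function.Injective.prodMap Function.injective_id Fin.succAbove_right_injective
  rw [← hi.tsum_eq]
  · simp only [faceV_succAbove, rotV_faceV_succAbove, faceX]
  · rintro ⟨m, l⟩ hp
    rcases Fin.eq_self_or_eq_succAbove a l with rfl | ⟨j, rfl⟩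
    · simp [rotV_faceV_self] at hp
    · exact ⟨(m, j), rfl⟩

theorem Bra_rotV (w : Fin (n + 1) → ℝ) (l : Fin (n + 1)) :
    rotV w l = w (l + 1) + ((if l = Fin.last n then 1 else 0 : ℤ) : ℝ) := by
  unfold rotV
  split_ifs with h
  · rw [h, Fin.last_add_one, Int.cast_one]
  · rw [Int.cast_zero, add_zero]

theorem Bra_rotX (g : G) (x : Fin (n + 1) → G) (l : Fin (n + 1)) :
    rotX g x l = g ^ (if l = Fin.last n then 1 else 0 : ℤ) * x (l + 1) := by
  unfold rotX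
  split_ifs with h
  · rw [h, Fin.last_add_one, zpow_one]
  · rw [zpow_zero, one_mul]

/-- the reindexing of `br_rot` -/
def Bra_equiv (n : ℕ) : ℤ × Fin (n + 1) ≃ ℤ × Fin (n + 1) where
  toFun p := (p.1 + (if p.2 = Fin.last n then 1 else 0), p.2 + 1)
  invFun p := (p.1 - (if p.2 - 1 = Fin.last n then 1 else 0), p.2 - 1)
  left_inv p := by simp
  right_inv p := by simp

/-- reindex by `(n,l) ↦ if l = last then (n+1,0) else (n,l+1)`. -/
theorem br_rot (g : G) (x : Fin (n + 1) → G) (v : Fin (n + 1) → ℝ) :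
    br g (rotX g x) (rotV v) = br g x v := by
  funext κ F
  unfold br
  refine Eq.trans ?_ ((Bra_equiv n).tsum_eq _)
  refine tsum_congr fun p => ?_
  simp only [Bra_equiv, Equiv.coe_fn_mk]
  rw [Bra_rotX, Bra_rotV (rotV v) p.2, Bra_rotV v p.2, zpow_add, mul_assoc, Int.cast_add, add_assoc, add_assoc,
    add_comm (p.1 : ℝ)]

theorem bs_face (g : G) (a : Fin (n + 2)) (x : Fin (n + 2) → G) (σ : ℝ) (v : Fin (n + 1) → ℝ) :
    bs g x σ (faceV a v) = bs g (faceX a x) σ v := by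
  unfold bs; rw [br_face]

theorem bs_rot (g : G) (x : Fin (n + 1) → G) (σ : ℝ) (v : Fin (n + 1) → ℝ) :
    bs g (rotX g x) σ (rotV v) = bs g x σ v := by
  unfold bs; rw [br_rot]

theorem bs_trans (g : G) (x : Fin (n + 1) → G) (σ s : ℝ) (v : Fin (n + 1) → ℝ) :
    bs g x σ (fun i => v i + s) = bs g x (σ - s) v := by
  funext κ F
  rw [bs_apply, bs_apply]
  refine tsum_congr fun p => ?_
  rw [Bra_rotV, Bra_rotV]
  congr 4 <;> ring

theorem bs_per (g : G) (x : Fin (n + 1) → G) (σ : ℝ) (v : Fin (n + 1) → ℝ) :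
    bs g x (σ + 1) v = act g (bs g x σ v) := by
  funext κ F
  unfold act
  rw [bs_apply, bs_apply, ← ((Equiv.addRight (1 : ℤ)).prodCongr (Equiv.refl (Fin (n + 1)))).tsum_eq]
  refine tsum_congr fun p => ?_
  simp only [Equiv.prodCongr_apply, Equiv.coe_addRight, Equiv.coe_refl, Prod.map_fst, Prod.map_snd, id]
  rw [← mul_assoc, ← zpow_one_add, add_comm (1 : ℤ), Int.cast_add, Int.cast_one]
  congr 4 <;> ring

theorem bs_mul (g c : G) (hc : Commute c g) (x : Fin (n + 1) → G) (σ : ℝ) (v : Fin (n + 1) → ℝ) :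
    bs g (fun i => c * x i) σ v = act c (bs g x σ v) := by
  funext κ F
  unfold act
  rw [bs_apply, bs_apply]
  refine tsum_congr fun p => ?_
  rw [← mul_assoc, ← mul_assoc, (hc.zpow_right p.1).eq]

theorem sh_bs (g : G) (x : Fin (n + 1) → G) (σ s : ℝ) (v : Fin (n + 1) → ℝ) :
    sh (bs g x σ v) s = bs g x (σ + s) v := by
  funext κ F
  unfold sh
  rw [bs_apply, bs_apply]
  simp only [sub_sub]

theorem sh_act (c : G) (β : Pth G) (s : ℝ) : sh (act c β) s = act c (sh β s) := rfl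

theorem homog_bs (g : G) (x : Fin (n + 1) → G) (σ : ℝ) (v : Fin (n + 1) → ℝ) : Homog (bs g x σ v) := by
  intro κ c F
  rw [bs_apply, bs_apply, ← tsum_mul_left]
  simp only [mul_assoc]

theorem Homog.sh {β : Pth G} (h : Homog β) (s : ℝ) : Homog (sh β s) := fun _ c F => h _ c F

theorem Homog.act {β : Pth G} (h : Homog β) (c : G) : Homog (act c β) := fun κ a _ => h κ a _

theorem bs_congr (g : G) (x : Fin (n + 1) → G) (σ : ℝ) (v : Fin (n + 1) → ℝ) (κ : ℝ → ℝ) {F F' : G → ℂ}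
    (h : ∀ (m : ℤ) i, F (g ^ m * x i) = F' (g ^ m * x i)) : bs g x σ v κ F = bs g x σ v κ F' := by
  simp only [bs_apply, h]

/-! ### part b -/

theorem Cdf.adm {κ : ℝ → ℝ} {w : ℝ} (h : Cdf κ w) : Adm κ :=
  ⟨h.smooth, fun s hs => by rw [h.left s hs, h.left 0 le_rfl],
    fun s hs => by rw [h.right s (h.le_half.trans hs), h.right _ h.le_half]⟩

theorem brb_van {σ : ℝ} {v : Fin (n + 1) → ℝ} {N : ℕ} (h : ‖v‖ + |σ| + 2 ≤ N) {κ : ℝ → ℝ} (hκ : Adm κ) :
    ∀ r ∉ Finset.Icc (-(N : ℤ)) N ×ˢ (Finset.univ : Finset (Fin (n + 1))),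
      κ (rotV v r.2 + r.1 - σ) - κ (v r.2 + r.1 - σ) = 0 := by
  intro r hr
  have h1 : ∀ i, |v i| ≤ ‖v‖ := fun i => norm_le_pi_norm v i
  have h2 : -‖v‖ ≤ rotV v r.2 ∧ rotV v r.2 ≤ ‖v‖ + 1 := by
    unfold rotV
    split_ifs
    · constructor <;> linarith [(abs_le.1 (h1 0)).1, (abs_le.1 (h1 0)).2]
    · constructor <;> linarith [(abs_le.1 (h1 (r.2 + 1))).1, (abs_le.1 (h1 (r.2 + 1))).2]
  have h3 := abs_le.1 (h1 r.2)
  have h4 := le_abs_self σ
  have h5 := neg_abs_le σ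
  simp only [Finset.mem_product, Finset.mem_univ, and_true, Finset.mem_Icc, not_and_or, not_le] at hr
  rcases hr with hr | hr
  · have : (r.1 : ℝ) ≤ -(N : ℝ) := by exact_mod_cast hr.le
    rw [hκ.left _ (by linarith [h2.2]), hκ.left (v r.2 + r.1 - σ) (by linarith [h3.2]), sub_self]
  · have : (N : ℝ) ≤ r.1 := by exact_mod_cast hr.le
    rw [hκ.right _ (by linarith [h2.1]), hκ.right (v r.2 + r.1 - σ) (by linarith [h3.1]), sub_self]

theorem brb_sum (g : G) (x : Fin (n + 1) → G) {σ : ℝ} {v : Fin (n + 1) → ℝ} {N : ℕ} (h : ‖v‖ + |σ| + 2 ≤ N)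
    {κ : ℝ → ℝ} (hκ : Adm κ) (F : G → ℂ) :
    bs g x σ v κ F = ∑ r ∈ Finset.Icc (-(N : ℤ)) N ×ˢ (Finset.univ : Finset (Fin (n + 1))),
      F (g ^ r.1 * x r.2) * ((κ (rotV v r.2 + r.1 - σ) - κ (v r.2 + r.1 - σ) : ℝ) : ℂ) := by
  rw [bs_apply]
  exact tsum_eq_sum fun r hr => by rw [brb_van h hκ r hr, ofReal_zero, mul_zero]

/-- near `(σ₀,v₀)` only the `|m| ≤ B` contribute, uniformly in the admissible kernel and in `F`. -/
theorem bs_local (g : G) (x : Fin (n + 1) → G) (σ₀ : ℝ) (v₀ : Fin (n + 1) → ℝ) :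
    ∃ S : Finset (ℤ × Fin (n + 1)), ∀ᶠ p : ℝ × (Fin (n + 1) → ℝ) in 𝓝 (σ₀, v₀), ∀ κ, Adm κ →
      (∀ r ∉ S, κ (rotV p.2 r.2 + r.1 - p.1) - κ (p.2 r.2 + r.1 - p.1) = 0) ∧
      ∀ F : G → ℂ, bs g x p.1 p.2 κ F = ∑ r ∈ S,
        F (g ^ r.1 * x r.2) * ((κ (rotV p.2 r.2 + r.1 - p.1) - κ (p.2 r.2 + r.1 - p.1) : ℝ) : ℂ) := by
  obtain ⟨N, hN⟩ := exists_nat_gt (‖v₀‖ + |σ₀| + 2)
  refine ⟨Finset.Icc (-(N : ℤ)) N ×ˢ Finset.univ, ?_⟩
  have hc : Continuous fun p : ℝ × (Fin (n + 1) → ℝ) => ‖p.2‖ + |p.1| + 2 := by fun_prop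
  filter_upwards [hc.continuousAt.eventually_lt continuousAt_const hN] with p hp κ hκ
  exact ⟨brb_van hp.le hκ, brb_sum g x hp.le hκ⟩

theorem contDiff_bs {B : Type} [NormedAddCommGroup B] [NormedSpace ℝ B] (g : G) (x : Fin (n + 1) → G)
    {κ : ℝ → ℝ} (hκ : Adm κ) {σ : B → ℝ} {v : B → Fin (n + 1) → ℝ} {F : B → G → ℂ}
    (hσ : ContDiff ℝ ∞ σ) (hv : ContDiff ℝ ∞ v) (hF : ∀ y, ContDiff ℝ ∞ fun p => F p y) :
    ContDiff ℝ ∞ fun p => bs g x (σ p) (v p) κ (F p) := by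
  refine contDiff_iff_contDiffAt.2 fun p₀ => ?_
  obtain ⟨S, hS⟩ := bs_local g x (σ p₀) (v p₀)
  have h1 := ((hσ.continuous.prodMk hv.continuous).tendsto p₀).eventually hS
  have hv1 : ∀ i, ContDiff ℝ ∞ fun p => v p i := contDiff_pi.1 hv
  have hv2 : ∀ i, ContDiff ℝ ∞ fun p => rotV (v p) i := by
    intro i
    unfold rotV
    split_ifs
    · exact (hv1 0).add contDiff_const
    · exact hv1 _
  have h2 : ContDiff ℝ ∞ fun p => ∑ r ∈ S, F p (g ^ r.1 * x r.2) *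
      ((κ (rotV (v p) r.2 + r.1 - σ p) - κ (v p r.2 + r.1 - σ p) : ℝ) : ℂ) :=
    ContDiff.sum fun r _ => (hF _).mul (ofRealCLM.contDiff.comp
      ((hκ.smooth.comp (((hv2 _).add contDiff_const).sub hσ)).sub
        (hκ.smooth.comp (((hv1 _).add contDiff_const).sub hσ))))
  exact h2.contDiffAt.congr_of_eventuallyEq (h1.mono fun p hp => (hp κ hκ).2 (F p))

theorem brb_tel (ψ : ℤ → ℝ) (N : ℕ) :
    ∑ m ∈ Finset.Icc (-(N : ℤ)) N, (ψ (m + 1) - ψ m) = ψ (N + 1) - ψ (-N) := by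
  induction N with
  | zero => simp
  | succ N ih =>
    have e : Finset.Icc (-((N + 1 : ℕ) : ℤ)) (N + 1 : ℕ) =
        insert (-((N : ℤ) + 1)) (insert ((N : ℤ) + 1) (Finset.Icc (-(N : ℤ)) N)) := by
      ext m
      simp only [Finset.mem_insert, Finset.mem_Icc]
      omega
    rw [e, Finset.sum_insert (by simp only [Finset.mem_insert, Finset.mem_Icc]; omega),
      Finset.sum_insert (by simp only [Finset.mem_Icc]; omega), ih,
      show -((N : ℤ) + 1) + 1 = -N by ring]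
    push_cast
    ring

theorem brb_rot (φ : ℝ → ℝ) (v : Fin (n + 1) → ℝ) :
    ∑ i, (φ (rotV v i) - φ (v i)) = φ (v 0 + 1) - φ (v 0) := by
  rw [Finset.sum_sub_distrib, Fin.sum_univ_castSucc, Fin.sum_univ_succ fun i => φ (v i)]
  simp only [rotV, if_true, (Fin.castSucc_lt_last _).ne, if_false, Fin.coeSucc_eq_succ]
  ring

/-- telescoping over `ℤ × Fin (n+1)`; holds for ALL `v`, `σ`. -/
theorem bs_const (g : G) (x : Fin (n + 1) → G) (σ : ℝ) (v : Fin (n + 1) → ℝ) {κ : ℝ → ℝ} {w : ℝ}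
    (hκ : Cdf κ w) (c : ℂ) : bs g x σ v κ (fun _ => c) = c := by
  obtain ⟨N, hN⟩ := exists_nat_ge (‖v‖ + |σ| + 2)
  rw [brb_sum g x hN hκ.adm, ← Finset.mul_sum, ← ofReal_sum, Finset.sum_product]
  have e : ∀ m : ℤ, ∑ i, (κ (rotV v i + m - σ) - κ (v i + m - σ)) =
      κ (v 0 + ((m + 1 : ℤ) : ℝ) - σ) - κ (v 0 + m - σ) := by
    intro m
    rw [brb_rot (fun s => κ (s + m - σ)) v]
    congr 2
    push_cast
    ring
  simp only [e]
  have h1 := abs_le.1 (show |v 0| ≤ ‖v‖ from norm_le_pi_norm v 0)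
  have h4 := le_abs_self σ
  have h5 := neg_abs_le σ
  rw [brb_tel (fun m : ℤ => κ (v 0 + m - σ)) N, hκ.right _ (hκ.le_half.trans (by push_cast; linarith [h1.1])),
    hκ.left _ (by push_cast; linarith [h1.2])]
  simp

theorem bs_add (g : G) (x : Fin (n + 1) → G) (σ : ℝ) (v : Fin (n + 1) → ℝ) {κ : ℝ → ℝ} (hκ : Adm κ)
    (F F' : G → ℂ) : bs g x σ v κ (fun y => F y + F' y) = bs g x σ v κ F + bs g x σ v κ F' := by
  obtain ⟨N, hN⟩ := exists_nat_ge (‖v‖ + |σ| + 2)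
  simp only [brb_sum g x hN hκ, add_mul, Finset.sum_add_distrib]

theorem bs_sub_ker (g : G) (x : Fin (n + 1) → G) (σ : ℝ) (v : Fin (n + 1) → ℝ) {κ κ' : ℝ → ℝ} (hκ : Adm κ)
    (hκ' : Adm κ') (F : G → ℂ) :
    bs g x σ v (fun s => κ s - κ' s) F = bs g x σ v κ F - bs g x σ v κ' F := by
  obtain ⟨N, hN⟩ := exists_nat_ge (‖v‖ + |σ| + 2)
  have h : Adm fun s => κ s - κ' s := ⟨hκ.smooth.sub hκ'.smooth,
    fun s hs => by rw [hκ.left s hs, hκ'.left s hs], fun s hs => by rw [hκ.right s hs, hκ'.right s hs]⟩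
  rw [brb_sum g x hN h, brb_sum g x hN hκ, brb_sum g x hN hκ', ← Finset.sum_sub_distrib]
  refine Finset.sum_congr rfl fun r _ => ?_
  push_cast
  ring

theorem Ord.mem_Icc {v : Fin (n + 1) → ℝ} (hv : Ord v) (l : Fin (n + 1)) : v l ∈ Set.Icc (0 : ℝ) 1 := by
  exact ⟨hv.1 ▸ hv.2.1 (Fin.zero_le l), (hv.2.1 (Fin.le_last l)).trans hv.2.2⟩

theorem Ord.le_rotV {v : Fin (n + 1) → ℝ} (hv : Ord v) (l : Fin (n + 1)) : v l ≤ rotV v l ∧ rotV v l ≤ 1 := by
  unfold rotV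
  split_ifs with h
  · rw [hv.1, zero_add]
    exact ⟨(hv.mem_Icc l).2, le_rfl⟩
  · refine ⟨hv.2.1 ?_, (hv.mem_Icc _).2⟩
    rw [Fin.le_def, Fin.val_add_one_of_lt (Fin.lt_last_iff_ne_last.2 h)]
    exact Nat.le_succ _

/-- for ordered breakpoints and `σ ∈ [0,1]` only `m = 0, 1` contribute. -/
theorem bs_eq_sum (g : G) (x : Fin (n + 1) → G) {σ : ℝ} (hσ : σ ∈ Set.Icc (0 : ℝ) 1) {v : Fin (n + 1) → ℝ}
    (hv : Ord v) {κ : ℝ → ℝ} (hκ : Adm κ) (F : G → ℂ) :
    bs g x σ v κ F = ∑ p, F (pt g x p) * (wt κ σ v p : ℂ) := by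
  have hinj : Function.Injective fun p : Fin 2 × Fin (n + 1) => (((p.1.val : ℤ), p.2) : ℤ × Fin (n + 1)) := by
    rintro ⟨a, b⟩ ⟨c, d⟩ h
    simp only [Prod.mk.injEq, Nat.cast_inj] at h
    exact Prod.ext (Fin.ext h.1) h.2
  rw [bs_apply, ← hinj.tsum_eq, tsum_fintype]
  · refine Finset.sum_congr rfl fun p _ => ?_
    simp only [pt, wt, zpow_natCast, Int.cast_natCast]
  · rintro ⟨m, l⟩ hp
    have h1 := hv.mem_Icc l
    have h2 := hv.le_rotV l
    have hne : κ (rotV v l + m - σ) - κ (v l + m - σ) ≠ 0 := fun h => hp (by simp only [h]; simp)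
    have h3 : 0 ≤ m := by
      by_contra hm
      have hm' : (m : ℝ) ≤ -1 := by exact_mod_cast (by omega : m ≤ -1)
      exact hne (by
        rw [hκ.left _ (by linarith [h2.2, hσ.1]), hκ.left (v l + m - σ) (by linarith [h1.2, hσ.1]), sub_self])
    have h4 : m ≤ 1 := by
      by_contra hm
      have hm' : (2 : ℝ) ≤ m := by exact_mod_cast (by omega : 2 ≤ m)
      exact hne (by
        rw [hκ.right _ (by linarith [h2.1, h1.1, hσ.2]), hκ.right (v l + m - σ) (by linarith [h1.1, hσ.2]),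
          sub_self])
    exact ⟨(⟨m.toNat, by omega⟩, l), Prod.ext (Int.toNat_of_nonneg h3) rfl⟩

theorem wt_nonneg {κ : ℝ → ℝ} {w : ℝ} (hκ : Cdf κ w) (σ : ℝ) {v : Fin (n + 1) → ℝ} (hv : Ord v)
    (p : Fin 2 × Fin (n + 1)) : 0 ≤ wt κ σ v p := by
  exact sub_nonneg.2 (hκ.mono (by linarith [(hv.le_rotV p.2).1]))

theorem sum_wt {κ : ℝ → ℝ} {w : ℝ} (hκ : Cdf κ w) {σ : ℝ} (hσ : σ ∈ Set.Icc (0 : ℝ) 1)
    {v : Fin (n + 1) → ℝ} (hv : Ord v) : ∑ p, wt κ σ v p = 1 := by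
  have h := bs_eq_sum (1 : Multiplicative ℤ) (fun _ => 1) hσ hv hκ.adm fun _ => 1
  rw [bs_const _ _ _ _ hκ] at h
  simp only [one_mul] at h
  exact_mod_cast h.symm

/-- total variation of the weights of a `1`-Lipschitz kernel primitive -/
theorem sum_abs_wt_le {κ : ℝ → ℝ} (hκ : Adm κ) (h1 : ∀ s, |deriv κ s| ≤ 1) (σ : ℝ)
    {v : Fin (n + 1) → ℝ} (hv : Ord v) : ∑ p, |wt κ σ v p| ≤ 2 := by
  have hL : LipschitzWith 1 κ :=
    lipschitzWith_of_nnnorm_deriv_le (hκ.smooth.differentiable (by simp)) fun s => by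
      exact_mod_cast (h1 s : ‖deriv κ s‖ ≤ 1)
  have h2 : ∀ p : Fin 2 × Fin (n + 1), |wt κ σ v p| ≤ rotV v p.2 - v p.2 := fun p => by
    have := hL.dist_le_mul (rotV v p.2 + p.1.val - σ) (v p.2 + p.1.val - σ)
    rw [Real.dist_eq, Real.dist_eq, NNReal.coe_one, one_mul] at this
    refine this.trans (le_of_eq ?_)
    rw [abs_of_nonneg (by linarith [(hv.le_rotV p.2).1])]
    ring
  have h3 : ∀ l, rotV v l = v (l + 1) + if l = Fin.last n then 1 else 0 := fun l => by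
    unfold rotV
    split_ifs with h
    · rw [h, Fin.last_add_one]
    · rw [add_zero]
  have h4 : ∑ l, (rotV v l - v l) = 1 := by
    simp only [h3, Finset.sum_sub_distrib, Finset.sum_add_distrib, Finset.sum_ite_eq', Finset.mem_univ, if_true]
    rw [show ∑ l, v (l + 1) = ∑ l, v l from Equiv.sum_comp (Equiv.addRight (1 : Fin (n + 1))) v]
    ring
  refine (Finset.sum_le_sum fun p _ => h2 p).trans (le_of_eq ?_)
  rw [Fintype.sum_prod_type]
  simp only [h4]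
  simp

/-! ### part c -/

theorem brc1_der {κ : ℝ → ℝ} (hκ : Adm κ) (s : ℝ) : HasDerivAt κ (deriv κ s) s :=
  (hκ.smooth.differentiable (by simp) s).hasDerivAt

theorem brc1_zero {κ : ℝ → ℝ} (hκ : Adm κ) {s : ℝ} (hs : s ≤ 0 ∨ 1 / 2 ≤ s) : deriv κ s = 0 := by
  rcases hs with hs | hs
  · exact (uniqueDiffWithinAt_Iic s).eq_deriv _ (brc1_der hκ s).hasDerivWithinAt
      ((hasDerivWithinAt_const s _ (κ 0)).congr (fun t ht => hκ.left t (ht.trans hs)) (hκ.left s hs))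
  · exact (uniqueDiffWithinAt_Ici s).eq_deriv _ (brc1_der hκ s).hasDerivWithinAt
      ((hasDerivWithinAt_const s _ (κ (1 / 2))).congr (fun t ht => hκ.right t (hs.trans ht)) (hκ.right s hs))

theorem Adm.deriv {κ : ℝ → ℝ} (hκ : Adm κ) : Adm (deriv κ) := by
  exact ⟨hκ.smooth.iterate_deriv 1, fun s hs => by rw [brc1_zero hκ (.inl hs), brc1_zero hκ (.inl le_rfl)],
    fun s hs => by rw [brc1_zero hκ (.inr hs), brc1_zero hκ (.inr le_rfl)]⟩

theorem Adm.deriv_eq_zero {κ : ℝ → ℝ} (hκ : Adm κ) {s : ℝ} (hs : s ≤ 0 ∨ 1 / 2 ≤ s) :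
    _root_.deriv κ s = 0 := by
  exact brc1_zero hκ hs

theorem hasDerivAt_bs (g : G) (x : Fin (n + 1) → G) (σ : ℝ) (v : Fin (n + 1) → ℝ) {κ : ℝ → ℝ} (hκ : Adm κ)
    (F : G → ℂ) : HasDerivAt (fun s => bs g x s v κ F) (-bs g x σ v (deriv κ) F) σ := by
  obtain ⟨S, hS⟩ := bs_local g x σ v
  have hc : ContinuousAt (fun s : ℝ => (s, v)) σ := by fun_prop
  rw [(hS.self_of_nhds _ hκ.deriv).2 F, ← Finset.sum_neg_distrib]
  refine (HasDerivAt.fun_sum fun r _ => ?_).congr_of_eventuallyEq ((hc.eventually hS).mono fun s h => (h κ hκ).2 F)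
  have h : ∀ a : ℝ, HasDerivAt (fun s => κ (a - s)) (-deriv κ (a - σ)) σ := fun a =>
    (brc1_der hκ (a - σ)).comp_const_sub a σ
  refine (((h (rotV v r.2 + r.1)).fun_sub (h (v r.2 + r.1))).ofReal_comp.const_mul _).congr_deriv ?_
  push_cast
  ring

theorem differentiableAt_bs (g : G) (x : Fin (n + 1) → G) (σ : ℝ) (v : Fin (n + 1) → ℝ) {κ : ℝ → ℝ}
    (hκ : Adm κ) {F : (Fin (n + 1) → ℝ) → G → ℂ} (hF : ∀ y, DifferentiableAt ℝ (fun w => F w y) v) :
    DifferentiableAt ℝ (fun w => bs g x σ w κ (F w)) v := by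
  obtain ⟨S, hS⟩ := bs_local g x σ v
  have hc : ContinuousAt (fun w : Fin (n + 1) → ℝ => (σ, w)) v := by fun_prop
  refine (DifferentiableAt.fun_sum fun r _ => ?_).congr_of_eventuallyEq
    ((hc.eventually hS).mono fun w h => (h κ hκ).2 (F w))
  have h1 : Differentiable ℝ κ := hκ.smooth.differentiable (by simp)
  have h2 : DifferentiableAt ℝ (fun w : Fin (n + 1) → ℝ => rotV w r.2) v := by
    unfold rotV
    split_ifs <;> fun_prop
  have h3 : DifferentiableAt ℝ (fun w : Fin (n + 1) → ℝ => κ (rotV w r.2 + r.1 - σ) - κ (w r.2 + r.1 - σ)) v := by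
    fun_prop
  exact (hF _).mul (Complex.ofRealCLM.differentiableAt.comp v h3)

theorem pdbs_rotV_single (l i : Fin (n + 1)) (v : Fin (n + 1) → ℝ) :
    HasFDerivAt (fun w : Fin (n + 1) → ℝ => rotV w i)
      (ContinuousLinearMap.proj (R := ℝ) (φ := fun _ : Fin (n + 1) => ℝ) (i + 1)) v := by
  have _ := l
  unfold rotV
  by_cases hi : i = Fin.last n
  · simp only [hi, if_true, Fin.last_add_one]
    exact (hasFDerivAt_apply (0 : Fin (n + 1)) v).add_const 1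
  · simp only [hi, if_false]
    exact hasFDerivAt_apply (i + 1) v

theorem pdbs_wt (l i : Fin (n + 1)) (v : Fin (n + 1) → ℝ) {κ : ℝ → ℝ} (hκ : Adm κ) (a : ℝ) :
    ∃ D : (Fin (n + 1) → ℝ) →L[ℝ] ℂ, HasFDerivAt
      (fun w : Fin (n + 1) → ℝ => ((κ (rotV w i + a) - κ (w i + a) : ℝ) : ℂ)) D v ∧
      D (Pi.single l 1) = ((if i + 1 = l then deriv κ (rotV v i + a) else 0) -
        (if i = l then deriv κ (v i + a) else 0) : ℝ) := by
  have hd : Differentiable ℝ κ := hκ.smooth.differentiable (by simp)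
  have h1 := (hd (rotV v i + a)).hasDerivAt.comp_hasFDerivAt v ((pdbs_rotV_single l i v).add_const a)
  have h2 := (hd (v i + a)).hasDerivAt.comp_hasFDerivAt v ((hasFDerivAt_apply (𝕜 := ℝ) i v).add_const a)
  refine ⟨_, Complex.ofRealCLM.hasFDerivAt.comp v (h1.sub h2), ?_⟩
  simp [Pi.single_apply]
  split_ifs <;> simp

/-- product rule on the local finite sum of `bs_local`; the `κ'` terms are regrouped by breakpoint
(`rotV w i` depends on `w (i+1)`; for `i = last` shift `m`), and only `m = 0, 1` survive. -/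
theorem pd_bs (g : G) (x : Fin (n + 1) → G) {σ : ℝ} (hσ : σ ∈ Set.Icc (0 : ℝ) 1) {v : Fin (n + 1) → ℝ}
    (hv : Ord v) {κ : ℝ → ℝ} (hκ : Adm κ) {F : (Fin (n + 1) → ℝ) → G → ℂ}
    (hF : ∀ y, DifferentiableAt ℝ (fun w => F w y) v) (l : Fin (n + 1)) :
    pd l (fun w => bs g x σ w κ (F w)) v =
      ∑ m : Fin 2, (F v (g ^ m.val * pv g x l) - F v (g ^ m.val * x l)) * (deriv κ (v l + m.val - σ) : ℝ) +
      ∑ p, pd l (fun w => F w (pt g x p)) v * (wt κ σ v p : ℂ) := by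
  classical
  obtain ⟨S, hS⟩ := bs_local g x σ v
  have hc : Tendsto (fun w : Fin (n + 1) → ℝ => (σ, w)) (𝓝 v) (𝓝 (σ, v)) :=
    (continuous_const.prodMk continuous_id).tendsto v
  have hS' := hc.eventually hS
  have hS0 := hS.self_of_nhds κ hκ
  choose D hD hDl using fun r : ℤ × Fin (n + 1) => pdbs_wt l r.2 v hκ ((r.1 : ℝ) - σ)
  simp only [← add_sub_assoc] at hD hDl
  have hev : (fun w => bs g x σ w κ (F w)) =ᶠ[𝓝 v] fun w => ∑ r ∈ S,
      F w (g ^ r.1 * x r.2) * ((κ (rotV w r.2 + r.1 - σ) - κ (w r.2 + r.1 - σ) : ℝ) : ℂ) :=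
    hS'.mono fun w hw => (hw κ hκ).2 (F w)
  have hsum := HasFDerivAt.fun_sum (u := S) fun r _ => (hF (g ^ r.1 * x r.2)).hasFDerivAt.mul (hD r)
  have hD0 : ∀ r ∉ S, D r (Pi.single l 1) = 0 := fun r hr => by
    have h0 : (fun w : Fin (n + 1) → ℝ => ((κ (rotV w r.2 + r.1 - σ) - κ (w r.2 + r.1 - σ) : ℝ) : ℂ))
        =ᶠ[𝓝 v] fun _ => 0 := hS'.mono fun w hw => by
      show ((κ (rotV w r.2 + r.1 - σ) - κ (w r.2 + r.1 - σ) : ℝ) : ℂ) = 0
      rw [(hw κ hκ).1 r hr, ofReal_zero]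
    rw [(hD r).unique ((hasFDerivAt_const (0 : ℂ) v).congr_of_eventuallyEq h0)]; rfl
  have e1 : pd l (fun w => bs g x σ w κ (F w)) v =
      ∑ r ∈ S, F v (g ^ r.1 * x r.2) * D r (Pi.single l 1) +
      ∑ r ∈ S, pd l (fun w => F w (g ^ r.1 * x r.2)) v *
        ((κ (rotV v r.2 + r.1 - σ) - κ (v r.2 + r.1 - σ) : ℝ) : ℂ) := by
    unfold pd
    rw [hev.fderiv_eq, (show (fun w => ∑ r ∈ S,
      F w (g ^ r.1 * x r.2) * ((κ (rotV w r.2 + r.1 - σ) - κ (w r.2 + r.1 - σ) : ℝ) : ℂ)) =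
      fun w => ∑ r ∈ S, ((fun w => F w (g ^ r.1 * x r.2)) * fun w : Fin (n + 1) → ℝ =>
        ((κ (rotV w r.2 + r.1 - σ) - κ (w r.2 + r.1 - σ) : ℝ) : ℂ)) w from rfl), hsum.fderiv,
      ContinuousLinearMap.sum_apply, ← Finset.sum_add_distrib]
    refine Finset.sum_congr rfl fun r _ => ?_
    simp only [ContinuousLinearMap.add_apply, ContinuousLinearMap.smul_apply, smul_eq_mul]
    ring
  rw [e1, ← hS0.2 fun y => pd l (fun w => F w y) v, bs_eq_sum g x hσ hv hκ]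
  congr 1
  let φ : Fin 2 × Fin (n + 1) ↪ ℤ × Fin (n + 1) := ⟨fun p => ((p.1.val : ℤ), p.2), fun p p' h => by
    simp only [Prod.mk.injEq, Nat.cast_inj] at h
    exact Prod.ext (Fin.ext h.1) h.2⟩
  have hT0 : ∀ r ∉ Finset.univ.map φ, D r (Pi.single l 1) = 0 := fun r hr => by
    have hr' : r.1 ≤ -1 ∨ 2 ≤ r.1 := by
      by_contra hcon
      push Not at hcon
      refine hr (Finset.mem_map.2 ⟨(⟨r.1.toNat, by omega⟩, r.2), Finset.mem_univ _, ?_⟩)
      exact Prod.ext (by show ((r.1.toNat : ℕ) : ℤ) = r.1; omega) rfl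
    have a1 := hv.mem_Icc r.2
    have a2 := hv.le_rotV r.2
    have z1 : deriv κ (rotV v r.2 + r.1 - σ) = 0 := hκ.deriv_eq_zero (by
      rcases hr' with h | h
      · have : (r.1 : ℝ) ≤ -1 := by exact_mod_cast h
        left; linarith [hσ.1, a2.2]
      · have : (2 : ℝ) ≤ r.1 := by exact_mod_cast h
        right; linarith [hσ.2, a2.1, a1.1])
    have z2 : deriv κ (v r.2 + r.1 - σ) = 0 := hκ.deriv_eq_zero (by
      rcases hr' with h | h
      · have : (r.1 : ℝ) ≤ -1 := by exact_mod_cast h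
        left; linarith [hσ.1, a1.2]
      · have : (2 : ℝ) ≤ r.1 := by exact_mod_cast h
        right; linarith [hσ.2, a1.1])
    rw [hDl, z1, z2]; simp
  have e2 : ∑ r ∈ S, F v (g ^ r.1 * x r.2) * D r (Pi.single l 1) =
      ∑ r ∈ Finset.univ.map φ, F v (g ^ r.1 * x r.2) * D r (Pi.single l 1) := by
    rw [Finset.sum_subset (Finset.subset_union_left (s₂ := Finset.univ.map φ)) fun r _ hr => by
        rw [hD0 r hr, mul_zero],
      Finset.sum_subset (Finset.subset_union_right (s₁ := S) (s₂ := Finset.univ.map φ)) fun r _ hr => by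
        rw [hT0 r hr, mul_zero]]
  rw [e2, Finset.sum_map, Fintype.sum_prod_type]
  have e3 : ∀ m : Fin 2, ∑ i, F v (g ^ (φ (m, i)).1 * x (φ (m, i)).2) * D (φ (m, i)) (Pi.single l 1) =
      F v (g ^ m.val * x (l - 1)) * (deriv κ (rotV v (l - 1) + m.val - σ) : ℝ) -
        F v (g ^ m.val * x l) * (deriv κ (v l + m.val - σ) : ℝ) := fun m => by
    have : ∀ i, F v (g ^ (φ (m, i)).1 * x (φ (m, i)).2) * D (φ (m, i)) (Pi.single l 1) =
        (if i = l - 1 then F v (g ^ m.val * x i) * (deriv κ (rotV v i + m.val - σ) : ℝ) else 0) -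
        (if i = l then F v (g ^ m.val * x i) * (deriv κ (v i + m.val - σ) : ℝ) else 0) := fun i => by
      rw [hDl]
      show F v (g ^ ((m.val : ℕ) : ℤ) * x i) * (((if i + 1 = l then deriv κ (rotV v i + ((m.val : ℕ) : ℤ) - σ) else 0) -
        (if i = l then deriv κ (v i + ((m.val : ℕ) : ℤ) - σ) else 0) : ℝ) : ℂ) = _
      simp only [zpow_natCast, Int.cast_natCast, eq_sub_iff_add_eq]
      split_ifs <;> simp [mul_sub]
    simp only [this, Finset.sum_sub_distrib, Finset.sum_ite_eq', Finset.mem_univ, if_true]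
  simp only [e3, sub_mul, Finset.sum_sub_distrib]
  congr 1
  by_cases hl : l = 0
  · subst hl
    have hlast : (0 : Fin (n + 1)) - 1 = Fin.last n := by
      rw [sub_eq_iff_eq_add, Fin.last_add_one]
    have z1 : deriv κ (v 0 + ((0 : Fin 2).val : ℝ) - σ) = 0 := hκ.deriv_eq_zero (by
      left; rw [hv.1]; simpa using hσ.1)
    have z2 : deriv κ (v 0 + 1 + ((1 : Fin 2).val : ℝ) - σ) = 0 := hκ.deriv_eq_zero (by
      right; rw [hv.1]; have := hσ.2; simp only [Fin.val_one, Nat.cast_one]; linarith)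
    simp only [Fin.sum_univ_two, hlast, rotV, pv, if_true, z1, z2]
    simp
  · have hne : l - 1 ≠ Fin.last n := fun h => hl (by rw [sub_eq_iff_eq_add, Fin.last_add_one] at h; exact h)
    simp only [rotV, pv, hne, hl, if_false, sub_add_cancel]

theorem Cdf.deriv_nonneg {κ : ℝ → ℝ} {w : ℝ} (hκ : Cdf κ w) (s : ℝ) : 0 ≤ deriv κ s :=
  hκ.mono.deriv_nonneg

/-- norm form: `C` bounds the jumps of `F v` at the `l`-th breakpoint, `C'` the derivative of `F`. -/
theorem norm_pd_bs_le (g : G) (x : Fin (n + 1) → G) {σ : ℝ} (hσ : σ ∈ Set.Icc (0 : ℝ) 1)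
    {v : Fin (n + 1) → ℝ} (hv : Ord v) {κ : ℝ → ℝ} {w : ℝ} (hκ : Cdf κ w) {F : (Fin (n + 1) → ℝ) → G → ℂ}
    (hF : ∀ y, DifferentiableAt ℝ (fun w => F w y) v) (l : Fin (n + 1)) {C C' : ℝ}
    (hC : ∀ m : ℕ, ‖F v (g ^ m * pv g x l) - F v (g ^ m * x l)‖ ≤ C)
    (hC' : ∀ y, ‖pd l (fun w => F w y) v‖ ≤ C') :
    ‖pd l (fun w => bs g x σ w κ (F w)) v‖ ≤ C * dk κ (v l - σ) + C' := by
  rw [pd_bs g x hσ hv hκ.adm hF]
  refine (norm_add_le _ _).trans (add_le_add ((norm_sum_le _ _).trans ?_) ((norm_sum_le _ _).trans ?_))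
  · refine (Finset.sum_le_sum (g := fun m : Fin 2 => C * deriv κ (v l + m.val - σ)) fun m _ => ?_).trans_eq ?_
    · rw [norm_mul, Complex.norm_real, Real.norm_of_nonneg (hκ.deriv_nonneg _)]
      exact mul_le_mul_of_nonneg_right (hC _) (hκ.deriv_nonneg _)
    · rw [Fin.sum_univ_two, dk, mul_add, Fin.val_zero, Fin.val_one, Nat.cast_zero, Nat.cast_one, add_zero,
        add_sub_right_comm]
  · rw [← mul_one C', ← sum_wt hκ hσ hv, Finset.mul_sum]
    refine Finset.sum_le_sum fun p _ => ?_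
    rw [norm_mul, Complex.norm_real, Real.norm_of_nonneg (wt_nonneg hκ σ hv p)]
    exact mul_le_mul_of_nonneg_right (hC' _) (wt_nonneg hκ σ hv p)

end Crest.Agent.R192
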