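import Crest.Prelude.Def_L1GroupAlgebra

/-!
R192/Defs: all definitions of the proof of the `ℓ¹`-Bass statement (row 192).  See `notes192/R192.md`.  FROZEN.
-/

set_option autoImplicit false

open MeasureTheory Complex Crest.AlgebraR.L1
open scoped ContDiff ComplexConjugate

noncomputable section

namespace Crest.Agent.R192

/-! ### length functions, matrices -/

/-- a length function on a group with exponential growth `≤ b ^ r` -/
structure Len (G : Type) [Group G] where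
  l : G → ℕ
  b : ℕ
  two_le : 2 ≤ b
  l_one : l 1 = 0
  l_inv : ∀ x, l x⁻¹ = l x
  l_mul : ∀ x y, l (x * y) ≤ l x + l y
  fin : ∀ r, {x | l x ≤ r}.Finite
  card : ∀ r, (fin r).toFinset.card ≤ b ^ r

/-- the matrix of coefficients at `w` -/
def em {G : Type} {q : ℕ} (e : Fin q → Fin q → G → ℂ) (w : G) : Matrix (Fin q) (Fin q) ℂ :=
  Matrix.of fun i j => e i j w

/-- the (submultiplicative) entrywise `ℓ¹` norm of a matrix -/
def mn {q : ℕ} (A : Matrix (Fin q) (Fin q) ℂ) : ℝ := ∑ i, ∑ j, ‖A i j‖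

/-! ### cells, breakpoints, one-forms -/

section Cells
variable {G : Type} [Group G] {n : ℕ}

/-- previous vertex of the `g`-periodic sequence (`x (-1) = g⁻¹ x n`) -/
def pv (g : G) (x : Fin (n + 1) → G) (l : Fin (n + 1)) : G :=
  if l = 0 then g⁻¹ * x (Fin.last n) else x (l - 1)

/-- the step made at the `l`-th breakpoint -/
def wd (g : G) (x : Fin (n + 1) → G) (l : Fin (n + 1)) : G := (pv g x l)⁻¹ * x l

def rotX (g : G) (x : Fin (n + 1) → G) : Fin (n + 1) → G :=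
  fun l => if l = Fin.last n then g * x 0 else x (l + 1)

/-- rotated breakpoints; `rotV v l` is also the right end of the arc `[v l, v (l+1))` on which the path sits at `x l` -/
def rotV (v : Fin (n + 1) → ℝ) : Fin (n + 1) → ℝ :=
  fun l => if l = Fin.last n then v 0 + 1 else v (l + 1)

/-- delete the vertex `a` -/
def faceX (a : Fin (n + 2)) (x : Fin (n + 2) → G) : Fin (n + 1) → G := fun j => x (a.succAbove j)

def proj (a l : Fin (n + 2)) : Fin (n + 1) :=
  if l ≤ a then Fin.ofNat (n + 1) l.val else Fin.ofNat (n + 1) (l.val - 1)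

/-- breakpoints with an arc of length zero inserted at position `a` -/
def faceV (a : Fin (n + 2)) (v : Fin (n + 1) → ℝ) : Fin (n + 2) → ℝ :=
  fun l => v (proj a l) + if l = Fin.last (n + 1) ∧ a = Fin.last (n + 1) then 1 else 0

/-- ordered, normalised breakpoints -/
def Ord (v : Fin (n + 1) → ℝ) : Prop := v 0 = 0 ∧ Monotone v ∧ v (Fin.last n) ≤ 1

/-- partial derivative -/
def pd {N : ℕ} (i : Fin N) (f : (Fin N → ℝ) → ℂ) (v : Fin N → ℝ) : ℂ := fderiv ℝ f v (Pi.single i 1)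

/-- breakpoints from arc lengths -/
def uu {N : ℕ} (t : Fin N → ℝ) : Fin N → ℝ := fun l => (∑ j with j < l, t j) / ∑ j, t j

def shell (N : ℕ) : Set (Fin N → ℝ) := {t | (∀ i, 0 < t i) ∧ 1 ≤ ∑ i, t i ∧ ∑ i, t i ≤ 2}

end Cells

/-- a one-form on the breakpoint space of every cell -/
abbrev Form (G : Type) := ∀ n : ℕ, (Fin (n + 1) → G) → (Fin (n + 1) → ℝ) → Fin (n + 1) → ℂ

structure IsConn {G : Type} [Group G] (g : G) (α : Form G) : Prop where
  smooth : ∀ n x l, ContDiff ℝ ∞ fun v => α n x v l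
  trans : ∀ n x v (s : ℝ), α n x (fun i => v i + s) = α n x v
  rot : ∀ n x v l, α n (rotX g x) (rotV v) l = α n x v (l + 1)
  face : ∀ n (a : Fin (n + 2)) x v j,
    α n (faceX a x) v j = ∑ l with proj a l = j, α (n + 1) x (faceV a v) l

/-! ### exterior algebra -/

abbrev Ex (N : ℕ) := ExteriorAlgebra ℂ (Fin N → ℂ)

/-- top-degree coefficient: `top N (ι v₀ ⋯ ι v_{N-1}) = det v`, zero on the other degrees -/
def top (N : ℕ) : Ex N →ₗ[ℂ] ℂ :=
  ExteriorAlgebra.liftAlternating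
    (Function.update (0 : ∀ i, (Fin N → ℂ) [⋀^Fin i]→ₗ[ℂ] ℂ) N Matrix.detRowAlternating)

def io {N : ℕ} (v : Fin N → ℂ) : Ex N := ExteriorAlgebra.ι ℂ v

/-- the two-form `∑ M i l dv_i ∧ dv_l` -/
def om {N : ℕ} (M : Matrix (Fin N) (Fin N) ℂ) : Ex N :=
  ∑ i, ∑ l, M i l • (io (Pi.single i 1) * io (Pi.single l 1))

/-- `a ∧ (om M)^k` -/
def Om {N : ℕ} (k : ℕ) (a : Fin N → ℂ) (M : Matrix (Fin N) (Fin N) ℂ) : ℂ := top N (io a * om M ^ k)

/-! ### smooth step -/

abbrev st : ℝ → ℝ := Real.smoothTransition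

theorem exists_Th : ∃ T : ℝ, 1 ≤ T ∧ ∀ s, |deriv st s| ≤ T := by
  have hc : Continuous (deriv st) := (Real.smoothTransition.contDiff (n := 1)).continuous_deriv le_rfl
  obtain ⟨C, hC⟩ := isCompact_Icc.exists_bound_of_continuousOn (s := Set.Icc (0:ℝ) 1) hc.continuousOn
  refine ⟨max 1 C, le_max_left _ _, fun s => ?_⟩
  by_cases hs : s ∈ Set.Icc (0:ℝ) 1
  · exact (hC s hs).trans (le_max_right _ _)
  · have h0 : deriv st s = 0 := by
      rw [Set.mem_Icc, not_and_or, not_le, not_le] at hs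
      rcases hs with hs | hs
      · have : st =ᶠ[nhds s] fun _ => 0 :=
          (gt_mem_nhds hs).mono fun y hy => Real.smoothTransition.zero_of_nonpos (le_of_lt hy)
        rw [this.deriv_eq, deriv_const]
      · have : st =ᶠ[nhds s] fun _ => 1 :=
          (lt_mem_nhds hs).mono fun y hy => Real.smoothTransition.one_of_one_le (le_of_lt hy)
        rw [this.deriv_eq, deriv_const]
    rw [h0, abs_zero]; exact zero_le_one.trans (le_max_left _ _)

/-- absolute constant bounding the derivative of the smooth step -/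
def Th : ℝ := Classical.choose exists_Th

theorem one_le_Th : 1 ≤ Th := (Classical.choose_spec exists_Th).1
theorem abs_deriv_st_le (s : ℝ) : |deriv st s| ≤ Th := (Classical.choose_spec exists_Th).2 s

/-- cut-off: `1` on `s ≤ a`, `0` on `s ≥ a + 1` -/
def cutf (a s : ℝ) : ℝ := 1 - st (s - a)

/-! ### brackets: averages of a function along the step path against a kernel (given by its primitive `κ`) -/

abbrev Pth (G : Type) := (ℝ → ℝ) → (G → ℂ) → ℂ

section Br
variable {G : Type} [Group G] {n : ℕ}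

def br (g : G) (x : Fin (n + 1) → G) (v : Fin (n + 1) → ℝ) : Pth G := fun κ F =>
  ∑' p : ℤ × Fin (n + 1),
    F (g ^ p.1 * x p.2) * ((κ (rotV v p.2 + p.1) - κ (v p.2 + p.1) : ℝ) : ℂ)

/-- time shift -/
def sh (β : Pth G) (σ : ℝ) : Pth G := fun κ F => β (fun s => κ (s - σ)) F

/-- left translation of the path -/
def act (c : G) (β : Pth G) : Pth G := fun κ F => β κ fun y => F (c * y)

/-- the path of the cell `x` with breakpoints `v` seen from time `σ` -/
def bs (g : G) (x : Fin (n + 1) → G) (σ : ℝ) (v : Fin (n + 1) → ℝ) : Pth G := sh (br g x v) σ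

def Homog (β : Pth G) : Prop := ∀ κ (c : ℂ) F, β κ (fun y => c * F y) = c * β κ F

/-- admissible kernel primitive: smooth, constant on `(-∞,0]` and on `[1/2,∞)` -/
structure Adm (κ : ℝ → ℝ) : Prop where
  smooth : ContDiff ℝ ∞ κ
  left : ∀ s ≤ 0, κ s = κ 0
  right : ∀ s, 1 / 2 ≤ s → κ s = κ (1 / 2)

/-- distribution function of a smooth probability density supported in `[0,w]`, `w ≤ 1/2` -/
structure Cdf (κ : ℝ → ℝ) (w : ℝ) : Prop where
  smooth : ContDiff ℝ ∞ κ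
  mono : Monotone κ
  left : ∀ s ≤ 0, κ s = 0
  right : ∀ s, w ≤ s → κ s = 1
  le_half : w ≤ 1 / 2

/-- the finitely many points seen from `σ ∈ [0,1]` for ordered breakpoints -/
def pt (g : G) (x : Fin (n + 1) → G) (p : Fin 2 × Fin (n + 1)) : G := g ^ p.1.val * x p.2

/-- and their weights -/
def wt (κ : ℝ → ℝ) (σ : ℝ) (v : Fin (n + 1) → ℝ) (p : Fin 2 × Fin (n + 1)) : ℝ :=
  κ (rotV v p.2 + p.1.val - σ) - κ (v p.2 + p.1.val - σ)

/-- periodised density -/
def dk (κ : ℝ → ℝ) (s : ℝ) : ℝ := deriv κ s + deriv κ (s + 1)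

/-! ### the pairing one-form of a two-point function -/

def Phi (g : G) (Ψ : Pth G → Pth G → ℂ) (x : Fin (n + 1) → G) (σ : ℝ) (v : Fin (n + 1) → ℝ)
    (σ' : ℝ) (v' : Fin (n + 1) → ℝ) : ℂ := Ψ (bs g x σ v) (bs g x σ' v')

def alp (g : G) (Ψ : Pth G → Pth G → ℂ) : Form G := fun _ x v l =>
  ∫ σ in (0 : ℝ)..1, pd l (fun v' => Phi g Ψ x σ v σ v') v

def Dv (g : G) (Ψ : Pth G → Pth G → ℂ) (x : Fin (n + 1) → G) (v : Fin (n + 1) → ℝ) : ℂ :=
  ∫ σ in (0 : ℝ)..1, deriv (fun s => Phi g Ψ x s v σ v) σ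

def Mx (g : G) (Ψ : Pth G → Pth G → ℂ) (x : Fin (n + 1) → G) (v : Fin (n + 1) → ℝ) :
    Matrix (Fin (n + 1)) (Fin (n + 1)) ℂ := Matrix.of fun i l =>
  ∫ σ in (0 : ℝ)..1, pd i (fun w => pd l (fun w' => Phi g Ψ x σ w σ w') v) v

/-- smooth and periodic two-point function -/
structure Nice (g : G) (Ψ : Pth G → Pth G → ℂ) : Prop where
  smooth : ∀ (n : ℕ) (x : Fin (n + 1) → G), ContDiff ℝ ∞
    fun p : (ℝ × (Fin (n + 1) → ℝ)) × (ℝ × (Fin (n + 1) → ℝ)) => Phi g Ψ x p.1.1 p.1.2 p.2.1 p.2.2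
  per : ∀ β β', Homog β → Homog β' → Ψ (act g β) (act g β') = Ψ β β'

/-! ### metric parts -/

/-- truncated distance -/
def dT (L : Len G) (R : ℕ) (y y' : G) : ℝ := (min (L.l (y⁻¹ * y')) R : ℕ)

/-- column weight -/
def lam (L : Len G) (R : ℕ) (g : G) (x : Fin (n + 1) → G) (l : Fin (n + 1)) : ℝ :=
  max 1 (min (L.l (wd g x l)) R : ℕ)

/-- mean truncated distance between two kernel averages -/
def AA (L : Len G) (R : ℕ) (κ κ' : ℝ → ℝ) (β : Pth G) : ℝ :=
  (β κ fun y => β κ' fun y' => (dT L R y y' : ℂ)).re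

def Kt (κ₀ κ : ℝ → ℝ) : ℝ → ℝ := fun s => ∫ u in (0 : ℝ)..s, (κ₀ u - κ u)

def PsiK (L : Len G) (R : ℕ) (κ₀ κ : ℝ → ℝ) (β β' : Pth G) : ℂ :=
  β (Kt κ₀ κ) fun y => β' κ₀ fun y' => (dT L R y y' : ℂ)

/-- `v i` and `v l` are within `w` on the circle -/
def near {N : ℕ} (w : ℝ) (v : Fin N → ℝ) (i l : Fin N) : Prop :=
  |v i - v l| ≤ w ∨ |v i + 1 - v l| ≤ w ∨ |v i - 1 - v l| ≤ w

open Classical in
def cnt {N : ℕ} (w : ℝ) (v : Fin N → ℝ) (i : Fin N) : ℕ := (Finset.univ.filter (near w v i)).card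

end Br

/-! ### labels = orbits of `⟨g⟩` -/

section Lab
variable {G : Type} [Group G]

def labS (g : G) : Setoid G where
  r x y := ∃ n : ℤ, y = g ^ n * x
  iseqv := ⟨fun x => ⟨0, by simp⟩,
    fun ⟨n, h⟩ => ⟨-n, by rw [h, ← mul_assoc, ← zpow_add]; simp⟩,
    fun ⟨n, h⟩ ⟨m, h'⟩ => ⟨m + n, by rw [h', h, ← mul_assoc, ← zpow_add]⟩⟩

def Lab (g : G) : Type := Quotient (labS g)

instance (g : G) : DecidableEq (Lab g) := Classical.decEq _

instance (g : G) [Countable G] : Countable (Lab g) := inferInstanceAs (Countable (Quotient (labS g)))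

def lab (g x : G) : Lab g := Quotient.mk (labS g) x

def Lab.out {g : G} (J : Lab g) : G := Quotient.out (s := labS g) J

def lsmF (g c : G) (hc : Commute c g) : Lab g → Lab g :=
  Quotient.map (sa := labS g) (sb := labS g) (fun x => c * x) fun _ _ ⟨n, h⟩ =>
    ⟨n, by rw [h, ← mul_assoc, ← mul_assoc, (hc.zpow_right n).eq]⟩

/-- the action of `c ∈ C(g)` on labels -/
def lsm (g c : G) (hc : Commute c g) : Lab g ≃ Lab g where
  toFun := lsmF g c hc
  invFun := lsmF g c⁻¹ hc.inv_left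
  left_inv J := Quotient.inductionOn J fun x => congrArg (lab g) (inv_mul_cancel_left c x)
  right_inv J := Quotient.inductionOn J fun x => congrArg (lab g) (mul_inv_cancel_left c x)

/-- a shortest element of a set -/
def sel (L : Len G) (A : Set G) : G := Classical.epsilon fun a => a ∈ A ∧ ∀ b ∈ A, L.l a ≤ L.l b

def loc {g : G} (J : Lab g) (y : G) : Set G := {a | lab g (y * a) = J}

/-- distance from `y` to the orbit `J` -/
def dJ (L : Len G) {g : G} (J : Lab g) (y : G) : ℕ := L.l (sel L (loc J y))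

/-- an (equivariantly chosen) nearest point of the orbit `J` -/
def npt (L : Len G) {g : G} (J : Lab g) (y : G) : G := y * sel L (loc J y)

def expo {g : G} (J : Lab g) (j : G) : ℤ := Classical.epsilon fun n : ℤ => j = g ^ n * J.out

/-- `χ` is a value `χ(y)` of a character of `⟨y⟩` which is far from `1` at `y` and close to `1` on the ball `B_R` -/
def CharSpec (L : Len G) (R : ℕ) (y : G) (χ : ℂ) : Prop :=
  ‖χ‖ = 1 ∧ χ.re ≤ 1 / 2 ∧ (∀ n : ℤ, y ^ n = 1 → χ ^ n = 1) ∧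
    ∀ n : ℤ, L.l (y ^ n) ≤ R → ‖χ ^ n - 1‖ ≤ 1 / 8

end Lab

/-! ### parameters -/

structure Par where
  (q T1 r1 rho m G0 k0 q0 M d : ℕ)
  gam : ℝ

namespace Par
variable (P : Par)
def GG : ℕ := P.G0 + 1
def kc : ℕ := P.k0 + 1
def qq : ℕ := P.q0 + 1
def R : ℕ := 16 * P.rho
def Lam : ℕ := 16 * (4 * P.q * P.r1 + 2 * P.rho)
def R' : ℕ := P.Lam + 1
def Rs : ℕ := 44 * P.rho
def tau : ℝ := (P.T1 : ℝ) / P.m
def tau0 : ℝ := 1 / (128 * (P.R' : ℝ) * P.m)
def j1 : ℕ := ⌈5 * P.gam * P.rho⌉₊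
def th (j : ℕ) : ℝ := (P.GG : ℝ) ^ 2 * Real.exp (-(3 * P.gam * P.rho)) * 2 ^ j
/-- kernels -/
def k1 (b : ℕ) : ℝ → ℝ := fun s => st ((s - b * P.tau) / P.tau)
def kk : ℝ → ℝ := fun s => (∑ b ∈ Finset.range P.q, P.k1 b s) / P.q
def kp : ℝ → ℝ := fun s => (∑ b ∈ Finset.range P.q, P.k1 (b + 1) s) / P.q
def kz : ℝ → ℝ := fun s => st (s / P.tau0)
def p1 : ℝ → ℝ := fun s => (P.k1 0 s + P.k1 1 s) / 2
/-- majorant of all the periodised densities that occur in gradients -/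
def kb (s : ℝ) : ℝ := dk P.kk s + dk P.kp s
/-- the near character -/
def cn : ℂ := Complex.exp (2 * Real.pi * I / P.qq)
def gmax : ℝ := max 1 ‖(P.cn - 1)⁻¹‖
/-- bound for the `ℓ¹` norm of the normalised amplitudes -/
def HH : ℝ := 11000 * √(P.d : ℝ)
/-- gradient constant -/
def Gam : ℝ := 13 * Th * P.gam
end Par

/-- level and colour of a label -/
abbrev Sg (P : Par) := Fin (P.G0 + 1) × Fin (P.k0 + 1)

def lev (P : Par) (s : Sg P) : ℝ := (P.GG : ℝ) / (s.1.val + 1)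

/-- standing numerical assumptions -/
structure Valid {G : Type} [Group G] (L : Len G) (P : Par) : Prop where
  q_pos : 1 ≤ P.q
  T1_pos : 1 ≤ P.T1
  r1_pos : 1 ≤ P.r1
  rho_pos : 1 ≤ P.rho
  d_pos : 1 ≤ P.d
  gam_ge : 1 ≤ P.gam
  m_ge : 2 * (P.q + 1) * P.T1 ≤ P.m
  GG_eq : P.GG = L.b ^ (6 * P.rho)
  var : 8192 * P.gam ^ 2 * P.rho * P.r1 ≤ P.q
  low : 11000 * (P.d : ℝ) * (P.GG : ℝ) ^ 4 ≤ Real.exp (2 * P.gam * P.rho)
  prob : 2 * (2 * L.b : ℝ) ^ P.Lam * 2 ^ P.q * (P.j1 + 1) / 2 ^ P.d + (P.GG : ℝ) ^ 2 / P.kc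
    ≤ 1 / (4 * (P.GG : ℝ) ^ 16)
  farc : ∀ y, P.M ≤ L.l y → ∃ χ, CharSpec L P.Rs y χ
  q0_pos : 1 ≤ P.q0
  nearc : ∀ y, L.l y < P.M → ¬ IsOfFinOrder y → ∀ n : ℤ, L.l (y ^ n) ≤ P.Rs → ‖P.cn ^ n - 1‖ ≤ 1 / 8

instance optMS {α : Type} : MeasurableSpace (Option α) := ⊤

section N
variable {G : Type} [Group G] (L : Len G) (P : Par) {g : G}

/-- the hypothesis on `g` under which the trace vanishes -/
def Hyp (g : G) : Prop := ¬ IsOfFinOrder g ∨ ∀ y, IsConj g y → P.M ≤ L.l y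

def far (J : Lab g) : Prop := P.M ≤ L.l (J.out⁻¹ * g * J.out)

open Classical in
def chi (J : Lab g) : ℂ :=
  if far L P J then Classical.epsilon (CharSpec L P.Rs (J.out⁻¹ * g * J.out)) else P.cn

/-- the phase of the nearest point -/
def zeta (J : Lab g) (y : G) : ℂ := chi L P J ^ expo J (npt L J y)

theorem finite_near (L : Len G) (g : G) (r : ℕ) (c : G) : {J : Lab g | dJ L J c < r}.Finite := by
  refine ((L.fin r).image fun a => lab g (c * a)).subset fun J hJ => ?_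
  have hne : ∃ a, a ∈ loc J c ∧ ∀ b ∈ loc J c, L.l a ≤ L.l b := by
    have h0 : (loc J c).Nonempty := ⟨c⁻¹ * J.out, by
      show lab g (c * (c⁻¹ * J.out)) = J
      rw [mul_inv_cancel_left]; exact Quotient.out_eq (s := labS g) J⟩
    obtain ⟨a, ha, hmin⟩ := (measure L.l).wf.has_min _ h0
    exact ⟨a, ha, fun b hb => not_lt.1 (hmin b hb)⟩
  exact ⟨sel L (loc J c), (le_of_lt (show dJ L J c < r from hJ) : dJ L J c ≤ r), (Classical.epsilon_spec hne).1⟩

/-- labels within distance `< r` of `c` -/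
def nbh (g : G) (r : ℕ) (c : G) : Finset (Lab g) := (finite_near L g r c).toFinset

/-- labels which can be active when the path is concentrated near `c` -/
def UU (g c : G) : Finset (Lab g) := nbh L g (6 * P.rho) c

/-- all labels (with phase) that can ever be active on the cell `x` -/
def FF (g : G) {n : ℕ} (x : Fin (n + 1) → G) : Finset (Lab g × Fin 2) :=
  (Finset.univ.biUnion fun i => nbh L g P.R (x i)) ×ˢ Finset.univ

def fJ (J : Lab g) (y : G) : ℝ := (min (dJ L J y) P.R : ℕ)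

/-- short sample paths starting at `c` -/
def net (c : G) : Set (Fin P.q → G) :=
  {y | ∑ b : Fin P.q, L.l (((Fin.cons c y : Fin (P.q + 1) → G) b.castSucc)⁻¹ * y b) ≤ P.Lam}

def Eh (J : Lab g) (y : Fin P.q → G) : ℝ := P.gam * ((∑ b, fJ L P J (y b)) / P.q)

def mh (g c : G) (y : Fin P.q → G) (θ : ℝ) : ℝ :=
  ∑ J ∈ UU L P g c, min 1 (Real.exp (-Eh L P J y) / θ)

/-- the layer `η` is good at `c` -/
def Good (η : Lab g → Sg P) (c : G) : Prop :=
  (∀ y ∈ net L P c, ∀ j ≤ P.j1,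
    ∑ J ∈ UU L P g c, min 1 ((lev P (η J) * Real.exp (-Eh L P J y) / P.th j) ^ 2)
        ≤ 8 * mh L P g c y (P.th j) + P.d ∧
      (mh L P g c y (P.th j) - 1) / 2 - P.d
        ≤ ∑ J ∈ UU L P g c, min 1 ((lev P (η J) * Real.exp (-Eh L P J y) / P.th j) ^ 4)) ∧
  Set.InjOn (fun J => (η J).2) (UU L P g c)

abbrev Fld (g : G) := Lab g → Fin 2 → Option (Sg P)
abbrev Omg (g : G) := Fld P g × (Lab g → ZMod (P.q0 + 1))

/-- good two-phase fields -/
def FGood (f : Fld P g) : Prop :=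
  ∀ c : G, (∀ p, ∃ η, Good L P η c ∧ ∀ J ∈ UU L P g c, f J p = none ∨ f J p = some (η J)) ∧
    ∃ p, ∀ J ∈ UU L P g c, f J p ≠ none

/-- Gibbs weight with random level, for an energy function `E` -/
def vE (f : Fld P g) (E : Lab g → ℝ) (z : Lab g × Fin 2) : ℝ :=
  (f z.1 z.2).elim 0 fun s => lev P s * Real.exp (-E z.1)

def aE (f : Fld P g) (E : Lab g → ℝ) (z : Lab g × Fin 2) : ℝ :=
  cutf 3 (E z.1 / (P.gam * P.rho)) * vE P f E z ^ 2

def EJ (β : Pth G) (J : Lab g) : ℝ := P.gam * (β P.kk fun y => (fJ L P J y : ℂ)).re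

def nrm (f : Fld P g) (β : Pth G) : ℝ :=
  √((∑' z, aE P f (EJ L P β) z ^ 2) + Real.exp (-(8 * P.gam * P.rho)))

def rr (β : Pth G) : ℝ := (∑ b ∈ Finset.range P.q, AA L P.R' (P.k1 b) (P.k1 (b + 1)) β) / P.q

def ro (β : Pth G) : ℝ := AA L P.R' P.kk P.kk β

def cut (β : Pth G) : ℝ := cutf 1 (rr L P β / P.r1) * cutf 1 (ro L P β / P.rho)

open Classical in
def off (o : Omg P g) (J : Lab g) : ℂ := if far L P J then 1 else P.cn ^ (o.2 J).val

/-- twisted section attached to a label -/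
def ss (o : Omg P g) (z : Lab g × Fin 2) (β : Pth G) : ℂ :=
  ((cut L P β * (aE P o.1 (EJ L P β) z / nrm L P o.1 β) : ℝ) : ℂ) * β P.kk (zeta L P z.1) * off L P o z.1

/-- its twisted-periodic primitive -/
def PP (o : Omg P g) (z : Lab g × Fin 2) (β : Pth G) : ℂ :=
  (chi L P z.1 - 1)⁻¹ * ∫ s in (0 : ℝ)..1, ss L P o z (sh β s)

abbrev Ch (g : G) := Option (Lab g) × Fin 2 × Option (Fin (P.k0 + 1))

open Classical in
/-- channel: far labels have their own, near labels share one per phase and colour -/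
def ch (o : Omg P g) (z : Lab g × Fin 2) : Ch P g :=
  (if far L P z.1 then some z.1 else none, z.2, (o.1 z.1 z.2).map Prod.snd)

open Classical in
def gch (c : Ch P g) : ℂ :=
  c.1.elim (conj ((P.cn - 1)⁻¹)) fun J => if far L P J then conj ((chi L P J - 1)⁻¹) else 0

open Classical in
def PsiN (o : Omg P g) (β β' : Pth G) : ℂ :=
  ∑' z, ∑' z', if ch L P o z = ch L P o z' then conj (PP L P o z β) * ss L P o z' β' else 0

def Psi (o : Omg P g) (β β' : Pth G) : ℂ :=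
  (P.r1 : ℂ)⁻¹ * PsiK L P.R' P.kz P.p1 β β' + (P.rho : ℂ)⁻¹ * PsiK L P.R' P.kz P.kk β β' +
    PsiN L P o β β'

/-- gradient of the section -/
def ds (o : Omg P g) (z : Lab g × Fin 2) {n : ℕ} (x : Fin (n + 1) → G) (v : Fin (n + 1) → ℝ)
    (σ : ℝ) (l : Fin (n + 1)) : ℂ := pd l (fun w => ss L P o z (bs g x σ w)) v

/-- `c * J.out = g ^ nu * (cJ).out` -/
def nu (c : G) (hc : Commute c g) (J : Lab g) : ℤ := expo (lsm g c hc J) (c * J.out)

/-- the action of `c ∈ C(g)` on fields -/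
def actO (c : G) (hc : Commute c g) (o : Omg P g) : Omg P g :=
  (fun J => o.1 ((lsm g c hc).symm J),
   fun J => o.2 ((lsm g c hc).symm J) - ((nu c hc ((lsm g c hc).symm J) : ℤ) : ZMod (P.q0 + 1)))

end N

end Crest.Agent.R192
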