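import Crest.Agent.R192.Defs

/-!
R192/Iface: the interface statements between the blocks of row 192.  See `notes192/R192.md`.  FROZEN.
Every block proves `theorem stX : StX` in its own directory.
-/

set_option autoImplicit false

open MeasureTheory Complex Crest.AlgebraR.L1 ProbabilityTheory
open scoped ContDiff ComplexConjugate Nat

noncomputable section

namespace Crest.Agent.R192

/-- the statement of S0292 -/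
def St92 : Prop := ∀ (G : Type) [Group G] (q : ℕ) (e : Fin q → Fin q → G → ℂ), IsL1IdempotentMatrix e →
  Set.Finite {C : ConjClasses G | classTrace e C.carrier ≠ 0} ∧
    ∀ g : G, ¬ IsOfFinOrder g → classTrace e (ConjClasses.mk g).carrier = 0

/-- the statement of S0293 -/
def St93 : Prop := ∀ (G : Type) [Group G], (∀ g : G, IsOfFinOrder g → g = 1) →
  ∀ (R : Type) [CommRing R] [IsDomain R] [CharZero R] (e : MonoidAlgebra R G), e * e = e → e = 0 ∨ e = 1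

/-- the core theorem: finitely generated group, first moment -/
def Core : Prop := ∀ (G : Type) [Group G] (L : Len G) (q : ℕ) (e : Fin q → Fin q → G → ℂ),
  IsL1IdempotentMatrix e → Summable (fun w => mn (em e w) * (1 + (L.l w : ℝ))) →
  ∃ M : ℕ, ∀ g : G, (¬ IsOfFinOrder g ∨ ∀ y, IsConj g y → M ≤ L.l y) →
    classTrace e (ConjClasses.mk g).carrier = 0

/-- block A: reduction to the core theorem -/
def StA : Prop := Core → St92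

/-- block Z: Kaplansky's idempotent statement -/
def StZ : Prop := St92 → St93

/-- block CW: Chern-Weil theory on cyclic cells -/
def StCW : Prop := ∀ (G : Type) [Group G] (g : G) (q : ℕ) (e : Fin q → Fin q → G → ℂ),
  IsL1IdempotentMatrix e → ∀ (W : G → ℝ), (∀ w, 0 ≤ W w) → Summable (fun w => mn (em e w) * W w) →
  ∀ (Ω : Type) [MeasurableSpace Ω] (μ : Measure Ω) [IsProbabilityMeasure μ] (k : ℕ) (α : Ω → Form G),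
  (∀ o, IsConn g (α o)) →
  (∀ n x (Ξ : ((Fin (n + 1) → ℝ) → Fin (n + 1) → ℂ) → ℂ), Integrable (fun o => Ξ (α o n x)) μ) →
  (∀ c, Commute c g → ∃ a : Ω → Ω, MeasurePreserving a μ μ ∧
    ∀ o n x, α (a o) n (fun i => c * x i) = α o n x) →
  (∀ᵐ o ∂μ, ∀ n ≤ 2 * k, ∀ x v, Ord v → 1 / 16 ≤ (∑ l, α o n x v l).re) →
  (∃ K : ℝ, ∀ᵐ o ∂μ, ∀ n ≤ 2 * k, ∀ x v, Ord v → (∀ l, ‖α o n x v l‖ ≤ K) ∧
    ∀ i l, ‖pd i (fun w => α o n x w l) v - pd l (fun w => α o n x w i) v‖ ≤ K) →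
  ∀ Ψ : (Fin (2 * k + 1) → ℝ) → ℝ, IntegrableOn Ψ (shell (2 * k + 1)) → (∀ t, 0 ≤ Ψ t) →
  (∀ᵐ o ∂μ, ∀ x, ∀ t ∈ shell (2 * k + 1), ∃ M : Matrix (Fin (2 * k + 1)) (Fin (2 * k + 1)) ℂ,
    (∀ i l, M i l - M l i =
      pd i (fun w => α o (2 * k) x w l) (uu t) - pd l (fun w => α o (2 * k) x w i) (uu t)) ∧
    ‖Om k (α o (2 * k) x (uu t)) M‖ ≤ (∏ l, W (wd g x l)) * Ψ t) →
  ‖classTrace e (ConjClasses.mk g).carrier‖ ≤ ((2 * k)! / k ! : ℝ) * 16 ^ (k + 1) * Th *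
    (∫ t in shell (2 * k + 1), Ψ t) * (∑' w, mn (em e w) * W w) ^ (2 * k + 1)

/-- block E: the pairing one-form -/
def StE : Prop := ∀ (G : Type) [Group G] (g : G),
  (∀ Ψ, Nice g Ψ → IsConn g (alp g Ψ) ∧
    ∀ (n : ℕ) (x : Fin (n + 1) → G) (v : Fin (n + 1) → ℝ), ∑ l, alp g Ψ n x v l = Dv g Ψ x v ∧
      ∀ i l, Mx g Ψ x v i l - Mx g Ψ x v l i =
        pd i (fun w => alp g Ψ n x w l) v - pd l (fun w => alp g Ψ n x w i) v) ∧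
  ∀ (Ψ₁ Ψ₂ Ψ₃ : Pth G → Pth G → ℂ) (a b : ℂ), Nice g Ψ₁ → Nice g Ψ₂ → Nice g Ψ₃ →
    Nice g (fun β β' => a * Ψ₁ β β' + b * Ψ₂ β β' + Ψ₃ β β') ∧
    ∀ (n : ℕ) (x : Fin (n + 1) → G) (v : Fin (n + 1) → ℝ),
      (∀ l, alp g (fun β β' => a * Ψ₁ β β' + b * Ψ₂ β β' + Ψ₃ β β') n x v l =
        a * alp g Ψ₁ n x v l + b * alp g Ψ₂ n x v l + alp g Ψ₃ n x v l) ∧
      Dv g (fun β β' => a * Ψ₁ β β' + b * Ψ₂ β β' + Ψ₃ β β') x v =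
        a * Dv g Ψ₁ x v + b * Dv g Ψ₂ x v + Dv g Ψ₃ x v ∧
      ∀ i l, Mx g (fun β β' => a * Ψ₁ β β' + b * Ψ₂ β β' + Ψ₃ β β') x v i l =
        a * Mx g Ψ₁ x v i l + b * Mx g Ψ₂ x v i l + Mx g Ψ₃ x v i l

/-- block G: the metric parts -/
def StG : Prop := ∀ (G : Type) [Group G] (L : Len G) (R : ℕ) (g : G) (κ₀ κ : ℝ → ℝ) (w₀ w : ℝ),
  Cdf κ₀ w₀ → Cdf κ w → 0 < w₀ → w₀ ≤ w →
  Nice g (PsiK L R κ₀ κ) ∧
  ∀ (n : ℕ) (x : Fin (n + 1) → G) (v : Fin (n + 1) → ℝ), Ord v →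
    (∫ σ in (0 : ℝ)..1, AA L R κ κ₀ (bs g x σ v)) - 4 * R * (n + 1) * w₀ ≤ (Dv g (PsiK L R κ₀ κ) x v).re ∧
    (∀ l, ‖alp g (PsiK L R κ₀ κ) n x v l‖ ≤ 4 * lam L R g x l) ∧
    ∀ i l, ‖Mx g (PsiK L R κ₀ κ) x v i l‖ ≤ 8 * lam L R g x l ∧
      (¬ near w v i l → Mx g (PsiK L R κ₀ κ) x v i l = 0)

/-- block G2: the slowness functionals are dominated by the metric parts -/
def StG2 : Prop := ∀ (G : Type) [Group G] (L : Len G) (P : Par) (g : G), Valid L P →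
  ∀ (n : ℕ) (x : Fin (n + 1) → G) (v : Fin (n + 1) → ℝ), Ord v →
    Continuous (fun σ => rr L P (bs g x σ v)) ∧ Continuous (fun σ => ro L P (bs g x σ v)) ∧
    (∫ σ in (0 : ℝ)..1, rr L P (bs g x σ v)) ≤ 2 * (∫ σ in (0 : ℝ)..1, AA L P.R' P.p1 P.kz (bs g x σ v)) ∧
    (∫ σ in (0 : ℝ)..1, ro L P (bs g x σ v)) ≤ 2 * ∫ σ in (0 : ℝ)..1, AA L P.R' P.kk P.kz (bs g x σ v)

/-- block HS: smoothness, periodicity, equivariance and locality of the label part -/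
def StHS : Prop := ∀ (G : Type) [Group G] (L : Len G) (P : Par) (g : G), Valid L P → Hyp L P g →
  (∀ o : Omg P g, Nice g (PsiN L P o)) ∧
  (∀ (o : Omg P g) z (n : ℕ) (x : Fin (n + 1) → G),
    ContDiff ℝ ∞ fun p : ℝ × (Fin (n + 1) → ℝ) => ss L P o z (bs g x p.1 p.2)) ∧
  (∀ (o : Omg P g) z β, Homog β → ss L P o z (act g β) = chi L P z.1 * ss L P o z β) ∧
  (∀ (o : Omg P g) z (n : ℕ) (x : Fin (n + 1) → G) σ v, z ∉ FF L P g x → ss L P o z (bs g x σ v) = 0) ∧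
  (∀ c (hc : Commute c g) (o : Omg P g) β β', Homog β → Homog β' →
    Psi L P (actO P c hc o) (act c β) (act c β') = Psi L P o β β') ∧
  ∀ (n : ℕ) (x : Fin (n + 1) → G) (o o' : Omg P g),
    (∀ z ∈ FF L P g x, o.1 z.1 = o'.1 z.1 ∧ o.2 z.1 = o'.2 z.1) →
    ∀ σ v σ' v', Phi g (Psi L P o) x σ v σ' v' = Phi g (Psi L P o') x σ v σ' v'

/-- block HG: pointwise estimates for the sections on good fields -/
def StHG : Prop := ∀ (G : Type) [Group G] (L : Len G) (P : Par) (g : G), Valid L P → Hyp L P g →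
  ∀ (o : Omg P g), FGood L P o.1 →
  ∀ (n : ℕ) (x : Fin (n + 1) → G) (v : Fin (n + 1) → ℝ), Ord v → ∀ σ ∈ Set.Icc (0 : ℝ) 1,
    (∃ a : Lab g × Fin 2 → ℝ, (∀ z, 0 ≤ a z) ∧ ∑ z ∈ FF L P g x, a z ≤ P.HH ∧
      ∀ z, ‖ss L P o z (bs g x σ v)‖ ≤ a z ∧
        ∀ l, ‖ds L P o z x v σ l‖ ≤ P.Gam * lam L P.R' g x l * P.kb (v l - σ) * a z) ∧
    1 / 8 ≤ rr L P (bs g x σ v) / (2 * P.r1) + ro L P (bs g x σ v) / (2 * P.rho) +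
      ∑ z ∈ FF L P g x, ‖ss L P o z (bs g x σ v)‖ ^ 2 ∧
    ∀ z z', ch L P o z = ch L P o z' → ss L P o z (bs g x σ v) ≠ 0 → ss L P o z' (bs g x σ v) ≠ 0 → z = z'

open Classical in
/-- block HN: the pairing form of the label part -/
def StHN : Prop := ∀ (G : Type) [Group G] (L : Len G) (P : Par) (g : G), Valid L P → Hyp L P g →
  ∀ (o : Omg P g), FGood L P o.1 →
  ∀ (n : ℕ) (x : Fin (n + 1) → G) (v : Fin (n + 1) → ℝ), Ord v →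
    (Dv g (PsiN L P o) x v).re =
      (∫ σ in (0 : ℝ)..1, ∑ z ∈ FF L P g x, ‖ss L P o z (bs g x σ v)‖ ^ 2) ∧
    (∀ l, ‖alp g (PsiN L P o) n x v l‖ ≤ 4 * P.gmax * P.Gam * P.HH ^ 2 * lam L P.R' g x l) ∧
    (∀ z, Continuous fun σ => ds L P o z x v σ) ∧
    (∀ i l, Mx g (PsiN L P o) x v i l = ∑ z ∈ FF L P g x, ∑ z' ∈ FF L P g x,
      if ch L P o z = ch L P o z' then
        ∫ σ' in (0 : ℝ)..1, (gch L P (ch L P o z) * (∫ σ in (0 : ℝ)..1, conj (ds L P o z x v σ i)) +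
          ∫ σ in (0 : ℝ)..σ', conj (ds L P o z x v σ i)) * ds L P o z' x v σ' l
      else 0) ∧
    (∀ i l, ‖Mx g (PsiN L P o) x v i l‖ ≤ (P.gmax + 1) * (4 * P.Gam * P.HH * P.R') ^ 2) ∧
    (∫ σ in (0 : ℝ)..1, ∑ z ∈ FF L P g x, √(∑ l, (‖ds L P o z x v σ l‖ / lam L P.R' g x l) ^ 2)) ≤
      P.Gam * P.HH * √((n + 1) * (32 * Th / (P.q * P.tau)))

/-- block J: the amplitudes of a slow piece of path have few effective labels -/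
def StJ : Prop := ∀ (G : Type) [Group G] (L : Len G) (P : Par) (g : G), Valid L P →
  ∀ (f : Fld P g), FGood L P f →
  ∀ (ι : Type) [Fintype ι] (y : ι → G) (p : ℕ → ι → ℝ), (∀ b ≤ P.q, (∀ i, 0 ≤ p b i) ∧ ∑ i, p b i = 1) →
  ∀ (c : G), (∑ b ∈ Finset.range P.q, ∑ i, ∑ i', p b i * p (b + 1) i' * dT L P.R' (y i) (y i')) ≤ 2 * P.q * P.r1 →
  (∑ b ∈ Finset.range P.q, ∑ i, p b i * dT L P.R' c (y i)) ≤ 2 * P.q * P.rho →
  ∀ (E : Lab g → ℝ), (∀ J, E J = P.gam * ((∑ b ∈ Finset.range P.q, ∑ i, p b i * fJ L P J (y i)) / P.q)) →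
    Real.exp (-(8 * P.gam * P.rho)) ≤ ∑ z ∈ UU L P g c ×ˢ Finset.univ, aE P f E z ^ 2 ∧
    ∑ z ∈ UU L P g c ×ˢ Finset.univ, vE P f E z ^ 2 ≤
      P.HH * √(∑ z ∈ UU L P g c ×ˢ Finset.univ, aE P f E z ^ 2) ∧
    ∑ z ∈ UU L P g c ×ˢ Finset.univ, vE P f E z ^ 4 ≤
      2 * ∑ z ∈ UU L P g c ×ˢ Finset.univ, aE P f E z ^ 2

/-- block K: a random layer is good with overwhelming probability -/
def StK : Prop := ∀ (G : Type) [Group G] (L : Len G) (P : Par) (g : G), Valid L P → ∀ c : G,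
  Measure.infinitePi (fun _ : Lab g => (uniformOn Set.univ : Measure (Sg P))) {η | ¬ Good L P η c} ≤
    ENNReal.ofReal (1 / (4 * (P.GG : ℝ) ^ 16))

/-- block L: an invariant random two-phase field which is good everywhere -/
def StL : Prop := ∀ (J S : Type) [Countable J] [Fintype S] [Nonempty S] [MeasurableSpace S]
  [DiscreteMeasurableSpace S] (U : J → Finset J) (Δ : ℕ), (∀ j, j ∈ U j) → (∀ i j, i ∈ U j → j ∈ U i) →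
  (∀ j, (U j).card ≤ Δ) → ∀ (Bad : J → Set (J → S)),
  (∀ j η η', (∀ i ∈ U j, η i = η' i) → η ∈ Bad j → η' ∈ Bad j) →
  (∀ j, Measure.infinitePi (fun _ : J => (uniformOn Set.univ : Measure S)) (Bad j) ≤
    ENNReal.ofReal (1 / (4 * (Δ : ℝ) ^ 16))) →
  ∃ Q : Measure (J → Fin 2 → Option S), IsProbabilityMeasure Q ∧
    (∀ π : J ≃ J, (∀ i j, π i ∈ U (π j) ↔ i ∈ U j) →
      (∀ j η, (fun i => η (π.symm i)) ∈ Bad (π j) ↔ η ∈ Bad j) →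
      MeasurePreserving (fun (f : J → Fin 2 → Option S) i => f (π.symm i)) Q Q) ∧
    ∀ᵐ f ∂Q, ∀ j, (∀ p, ∃ η ∉ Bad j, ∀ i ∈ U j, f i p = none ∨ f i p = some (η i)) ∧
      ∃ p, ∀ i ∈ U j, f i p ≠ none

/-- block M: characters -/
def StM : Prop := ∀ (G : Type) [Group G] (L : Len G) (R : ℕ),
  (∀ y, 1024 * L.b ^ (2 * R) * R < L.l y → ∃ χ, CharSpec L R y χ) ∧
  ∀ M : ℕ, ∃ q0 : ℕ, 1 ≤ q0 ∧ ∀ y, L.l y < M → ¬ IsOfFinOrder y → ∀ n : ℤ, L.l (y ^ n) ≤ R →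
    ‖Complex.exp (2 * Real.pi * I / ((q0 + 1 : ℕ) : ℂ)) ^ n - 1‖ ≤ 1 / 8

open Classical in
/-- block I: the determinant estimate -/
def StI : Prop := ∀ (N k : ℕ) (Z Ch : Type) (s : Finset Z) (lm : Fin N → ℝ), (∀ l, 1 ≤ lm l) →
  ∀ (a₀ : Fin N → ℂ) (K₀ : ℝ), 0 ≤ K₀ → (∀ l, ‖a₀ l‖ ≤ K₀ * lm l) →
  ∀ (MK : Matrix (Fin N) (Fin N) ℂ) (bb : Fin N → ℝ) (ε : ℝ), 0 < ε → (∀ i, 0 ≤ bb i) →
  (∀ i, ∑ l, (‖MK i l‖ / lm l) ^ 2 ≤ bb i ^ 2) →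
  ∀ (ch : Z → Ch) (gc : Ch → ℂ) (Kc : ℝ), (∀ S : Finset Ch, ∏ c ∈ S, ‖gc c‖ ≤ Kc) →
  ∀ (A B : Z → ℝ → Fin N → ℂ), (∀ z, Continuous (A z)) → (∀ z, Continuous (B z)) →
  ∀ (η : ℝ), (∫ σ in (0 : ℝ)..1, ∑ z ∈ s, √(∑ l, (‖A z σ l‖ / lm l) ^ 2)) ≤ η →
  (∫ σ in (0 : ℝ)..1, ∑ z ∈ s, √(∑ l, (‖B z σ l‖ / lm l) ^ 2)) ≤ η →
  ∀ (M : Matrix (Fin N) (Fin N) ℂ), (∀ i l, M i l = MK i l + ∑ z ∈ s, ∑ z' ∈ s,
    if ch z = ch z' then ∫ σ' in (0 : ℝ)..1,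
      (gc (ch z) * (∫ σ in (0 : ℝ)..1, A z σ i) + ∫ σ in (0 : ℝ)..σ', A z σ i) * B z' σ' l else 0) →
  ‖Om k a₀ M‖ ≤ (∏ l, lm l) * (K₀ * √N * Kc * 2 ^ k * (N + η) ^ k * (ε * N + η) ^ k *
    (∏ i, max 1 (bb i / ε)) / k !)

/-- block Gap: clustering of breakpoints is integrable -/
def StGap : Prop := ∀ (N : ℕ), 1 ≤ N →
  (∀ (w₁ w₂ T₁ T₂ : ℝ), 0 ≤ w₁ → 0 ≤ w₂ → 1 ≤ T₁ → 1 ≤ T₂ → w₁ * N ≤ 3 * T₁ → w₂ * N ≤ 3 * T₂ →
    ∀ t ∈ shell N, ∏ i, √(1 + cnt w₁ (uu t) i / T₁ + cnt w₂ (uu t) i / T₂) ≤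
      10 ^ N * ∏ i, (1 + (√(N * t i))⁻¹)) ∧
  IntegrableOn (fun t : Fin N → ℝ => ∏ i, (1 + (√(N * t i))⁻¹)) (shell N) ∧
  ∫ t in shell N, ∏ i, (1 + (√(N * t i))⁻¹) ≤ (30 / N) ^ N

end Crest.Agent.R192
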