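import Crest.Agent.R192.Defs

/-!
R192/Ext: the top-degree functional on the exterior algebra.  Part a: algebra.  Part b: Hadamard's inequality.
Linear maps out of `Ex N` are compared with `ExteriorAlgebra.lhom_ext` (check on `ιMulti`).
-/

set_option autoImplicit false

open Complex ExteriorAlgebra

noncomputable section

namespace Crest.Agent.R192
variable {N : ℕ}

/-! ### part a -/

theorem io_mul_self (v : Fin N → ℂ) : io v * io v = 0 := ι_sq_zero v

theorem io_swap (v w : Fin N → ℂ) : io v * io w = -(io w * io v) :=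
  eq_neg_of_add_eq_zero_left (ι_add_mul_swap v w)

theorem io_eq_sum (v : Fin N → ℂ) : io v = ∑ i, v i • io (Pi.single i 1) := by
  conv_lhs => rw [pi_eq_sum_univ' v]
  simp only [io, map_sum, map_smul]

theorem top_ιMulti (v : Fin N → Fin N → ℂ) : top N (ιMulti ℂ N v) = (Matrix.of v).det := by
  rw [top, liftAlternating_apply_ιMulti, Function.update_self]
  rfl

theorem top_ιMulti_ne {k : ℕ} (hk : k ≠ N) (v : Fin k → Fin N → ℂ) : top N (ιMulti ℂ k v) = 0 := by
  rw [top, liftAlternating_apply_ιMulti, Function.update_of_ne hk]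
  rfl

/-- pull-back by an endomorphism multiplies by the determinant -/
theorem top_map (f : (Fin N → ℂ) →ₗ[ℂ] (Fin N → ℂ)) (ξ : Ex N) :
    top N (ExteriorAlgebra.map f ξ) = LinearMap.det f * top N ξ := by
  have h : (top N) ∘ₗ (ExteriorAlgebra.map f).toLinearMap = LinearMap.det f • top N := by
    refine ExteriorAlgebra.lhom_ext fun k => ?_
    ext v
    simp only [LinearMap.compAlternatingMap_apply, LinearMap.comp_apply, AlgHom.toLinearMap_apply,
      map_apply_ιMulti, LinearMap.smul_apply, smul_eq_mul]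
    by_cases hk : k = N
    · subst hk
      rw [top_ιMulti, top_ιMulti]
      have e : Matrix.of (f ∘ v) = Matrix.of v * (LinearMap.toMatrix' f).transpose := by
        ext i j
        simp only [Matrix.of_apply, Function.comp_apply, Matrix.mul_apply, Matrix.transpose_apply,
          LinearMap.toMatrix'_apply]
        conv_lhs => rw [pi_eq_sum_univ' (v i)]
        simp only [map_sum, map_smul, Finset.sum_apply, Pi.smul_apply, smul_eq_mul]
      rw [e, Matrix.det_mul, Matrix.det_transpose, LinearMap.det_toMatrix', mul_comm]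
    · rw [top_ιMulti_ne hk, top_ιMulti_ne hk, mul_zero]
  exact LinearMap.congr_fun h ξ

/-- forget the coordinate `a` -/
def res (a : Fin (N + 1)) : (Fin (N + 1) → ℂ) →ₗ[ℂ] (Fin N → ℂ) := LinearMap.funLeft ℂ ℂ a.succAbove

/-- Laplace expansion (`Matrix.det_succ_row_zero`) -/
theorem top_single_mul (a : Fin (N + 1)) (ξ : Ex (N + 1)) :
    top (N + 1) (io (Pi.single a 1) * ξ) = (-1) ^ a.val * top N (ExteriorAlgebra.map (res a) ξ) := by
  have h : (top (N + 1)) ∘ₗ (LinearMap.mulLeft ℂ (io (Pi.single a 1))) =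
      ((-1 : ℂ) ^ a.val) • ((top N) ∘ₗ (ExteriorAlgebra.map (res a)).toLinearMap) := by
    refine ExteriorAlgebra.lhom_ext fun k => ?_
    ext v
    simp only [LinearMap.compAlternatingMap_apply, LinearMap.comp_apply, AlgHom.toLinearMap_apply,
      map_apply_ιMulti, LinearMap.smul_apply, smul_eq_mul, LinearMap.mulLeft_apply]
    have e : io (Pi.single a 1) * ιMulti ℂ k v =
        ιMulti ℂ (k + 1) (Matrix.vecCons (Pi.single a 1) v) := by
      rw [ιMulti_succ_apply]; simp [io]
    rw [e]
    by_cases hk : k = N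
    · subst hk
      rw [top_ιMulti, top_ιMulti, Matrix.det_succ_row_zero, Finset.sum_eq_single a]
      · simp only [Matrix.of_apply, Matrix.cons_val_zero, Pi.single_eq_same, mul_one]
        congr 2
      · intro j _ hj
        simp [hj]
      · simp
    · rw [top_ιMulti_ne hk, top_ιMulti_ne (by omega), mul_zero]
  exact LinearMap.congr_fun h ξ

theorem om_congr {M M' : Matrix (Fin N) (Fin N) ℂ} (h : ∀ i l, M i l - M l i = M' i l - M' l i) :
    om M = om M' := by
  have key : ∀ M : Matrix (Fin N) (Fin N) ℂ, (2 : ℂ) • om M =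
      ∑ i, ∑ l, (M i l - M l i) • (io (Pi.single i 1) * io (Pi.single l 1)) := fun M => by
    simp only [sub_smul, Finset.sum_sub_distrib]
    rw [two_smul, sub_eq_add_neg, Finset.sum_comm (f := fun i l => M l i • _)]
    congr 1
    simp only [om, ← Finset.sum_neg_distrib, ← smul_neg, ← io_swap]
  refine smul_right_injective (Ex N) (two_ne_zero (α := ℂ)) ?_
  simp only [key, h]

theorem om_eq_sum_col (M : Matrix (Fin N) (Fin N) ℂ) :
    om M = ∑ l, io (fun i => M i l) * io (Pi.single l 1) := by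
  rw [om, Finset.sum_comm]
  refine Finset.sum_congr rfl fun l _ => ?_
  rw [io_eq_sum fun i => M i l, Finset.sum_mul]
  simp only [smul_mul_assoc]

theorem om_add (M M' : Matrix (Fin N) (Fin N) ℂ) : om (M + M') = om M + om M' := by
  simp only [om, Matrix.add_apply, add_smul, Finset.sum_add_distrib]

theorem om_smul (c : ℂ) (M : Matrix (Fin N) (Fin N) ℂ) : om (c • M) = c • om M := by
  simp only [om, Matrix.smul_apply, smul_eq_mul, mul_smul, Finset.smul_sum]

theorem om_sum {ι : Type*} (s : Finset ι) (M : ι → Matrix (Fin N) (Fin N) ℂ) :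
    om (∑ z ∈ s, M z) = ∑ z ∈ s, om (M z) := by
  simp only [om, Matrix.sum_apply, Finset.sum_smul]
  rw [Finset.sum_comm (s := s)]
  exact Finset.sum_congr rfl fun i _ => Finset.sum_comm

theorem om_vecMulVec (a b : Fin N → ℂ) : om (Matrix.vecMulVec a b) = io a * io b := by
  rw [io_eq_sum a, io_eq_sum b, Finset.sum_mul_sum]
  simp only [om, Matrix.vecMulVec_apply, smul_mul_smul_comm]

theorem commute_io_two (v a b : Fin N → ℂ) : Commute (io v) (io a * io b) := by
  rw [Commute, SemiconjBy, ← mul_assoc, io_swap v a, neg_mul, mul_assoc, io_swap v b, mul_neg, neg_neg,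
    mul_assoc]

theorem commute_io_om (v : Fin N → ℂ) (M : Matrix (Fin N) (Fin N) ℂ) : Commute (io v) (om M) := by
  exact Commute.sum_right _ _ _ fun i _ => Commute.sum_right _ _ _ fun l _ =>
    (commute_io_two v _ _).smul_right _

/-- expansion of a power of a sum of weighted products -/
theorem sum_pow_eq {Z : Type*} [Fintype Z] (c : Z → ℂ) (ξ : Z → Ex N) (k : ℕ) :
    (∑ z, c z • ξ z) ^ k = ∑ f : Fin k → Z, (∏ j, c (f j)) • (List.ofFn fun j => ξ (f j)).prod := by
  induction k with
  | zero => simp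
  | succ k ih =>
    rw [pow_succ', ih, Finset.sum_mul_sum, ← Fintype.sum_prod_type',
      ← (Fin.consEquiv fun _ : Fin (k + 1) => Z).sum_comp]
    refine Finset.sum_congr rfl fun p _ => ?_
    simp only [Fin.consEquiv_apply, Fin.prod_univ_succ, List.ofFn_succ, List.prod_cons, Fin.cons_zero,
      Fin.cons_succ, smul_mul_smul_comm]

theorem exta2_swap (v : Fin N → ℂ) (k : ℕ) (a : Fin k → Fin N → ℂ) :
    io v * ιMulti ℂ k a = (-1 : ℂ) ^ k • (ιMulti ℂ k a * io v) := by
  induction k with
  | zero => simp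
  | succ k ih =>
    rw [ιMulti_succ_apply, ← mul_assoc, ← io, io_swap v, neg_mul, mul_assoc, ih, pow_succ, mul_neg_one,
      neg_smul, mul_smul_comm, mul_assoc]

/-- sorting a product of decomposable two-forms -/
theorem prod_two_eq (k : ℕ) (a b : Fin k → Fin N → ℂ) :
    (List.ofFn fun j => io (a j) * io (b j)).prod =
      ((-1 : ℂ) ^ (k * (k - 1) / 2)) • (ιMulti ℂ k a * ιMulti ℂ k b) := by
  induction k with
  | zero => simp
  | succ k ih =>
    rw [List.ofFn_succ, List.prod_cons, ih, ιMulti_succ_apply, ιMulti_succ_apply, Nat.triangle_succ, pow_add,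
      mul_smul, mul_smul_comm, mul_assoc, ← mul_assoc (io (b 0)), exta2_swap, smul_mul_assoc, mul_smul_comm,
      mul_assoc, mul_assoc]
    rfl

/-- `Om` is a polynomial in the entries -/
theorem continuous_Om (k : ℕ) : Continuous fun p : (Fin N → ℂ) × Matrix (Fin N) (Fin N) ℂ => Om k p.1 p.2 := by
  have H : ∀ ξ : Ex N, Continuous fun M : Matrix (Fin N) (Fin N) ℂ => top N (ξ * om M ^ k) := by
    induction k with
    | zero => intro ξ; simpa using continuous_const
    | succ k ih =>
      intro ξ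
      have e : (fun M : Matrix (Fin N) (Fin N) ℂ => top N (ξ * om M ^ (k + 1))) =
          fun M => ∑ i, ∑ l, M i l *
            top N ((ξ * (io (Pi.single i 1) * io (Pi.single l 1))) * om M ^ k) := by
        funext M
        rw [pow_succ', ← mul_assoc]
        nth_rewrite 1 [om]
        simp only [Finset.mul_sum, Finset.sum_mul, mul_smul_comm, smul_mul_assoc, map_sum, map_smul,
          smul_eq_mul]
      rw [e]
      refine continuous_finsetSum _ fun i _ => continuous_finsetSum _ fun l _ => ?_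
      exact (continuous_id.matrix_elem i l).mul (ih _)
  have e : (fun p : (Fin N → ℂ) × Matrix (Fin N) (Fin N) ℂ => Om k p.1 p.2) =
      fun p => ∑ i, p.1 i * top N (io (Pi.single i 1) * om p.2 ^ k) := by
    funext p
    rw [Om, io_eq_sum]
    simp only [Finset.sum_mul, smul_mul_assoc, map_sum, map_smul, smul_eq_mul]
  rw [e]
  refine continuous_finsetSum _ fun i _ => ?_
  exact ((continuous_apply i).comp continuous_fst).mul ((H _).comp continuous_snd)

/-! ### part b -/

/-- Hadamard's inequality (normalise the rows; `det (A Aᴴ) = ∏ eigenvalues ≤ (trace / N)^N` by AM-GM) -/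
theorem hadamard (A : Matrix (Fin N) (Fin N) ℂ) : ‖A.det‖ ≤ ∏ i, √(∑ l, ‖A i l‖ ^ 2) := by
  let f : Fin N → EuclideanSpace ℂ (Fin N) := fun i => WithLp.toLp 2 (A i)
  have hd : Module.finrank ℂ (EuclideanSpace ℂ (Fin N)) = Fintype.card (Fin N) := by simp
  let b := InnerProductSpace.gramSchmidtOrthonormalBasis hd f
  let e := EuclideanSpace.basisFun (Fin N) ℂ
  have h1 : A.det = e.toBasis.det f := by
    rw [Module.Basis.det_apply, ← Matrix.det_transpose]
    congr 1
  have h2 : e.toBasis.det f = e.toBasis.det b * b.toBasis.det f := by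
    have := congrArg (fun g => g f) (e.toBasis.det.eq_smul_basis_det b.toBasis)
    simpa using this
  rw [h1, h2, norm_mul, OrthonormalBasis.det_to_matrix_orthonormalBasis, one_mul,
    InnerProductSpace.gramSchmidtOrthonormalBasis_det, norm_prod]
  refine Finset.prod_le_prod (fun i _ => norm_nonneg _) fun i _ => ?_
  refine (norm_inner_le_norm _ _).trans ?_
  rw [b.orthonormal.1 i, one_mul, EuclideanSpace.norm_eq]

theorem hadamard_scaled (A : Matrix (Fin N) (Fin N) ℂ) (lm : Fin N → ℝ) (hl : ∀ l, 0 < lm l) :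
    ‖A.det‖ ≤ (∏ l, lm l) * ∏ i, √(∑ l, (‖A i l‖ / lm l) ^ 2) := by
  let B : Matrix (Fin N) (Fin N) ℂ := Matrix.of fun i l => A i l / (lm l : ℂ)
  have h1 : A = B * Matrix.diagonal fun l => (lm l : ℂ) := by
    ext i l
    have : (lm l : ℂ) ≠ 0 := by exact_mod_cast (hl l).ne'
    simp [B, Matrix.mul_diagonal, div_mul_cancel₀ _ this]
  have h2 : ‖A.det‖ = (∏ l, lm l) * ‖B.det‖ := by
    rw [h1, Matrix.det_mul, Matrix.det_diagonal, norm_mul, norm_prod, mul_comm]
    congr 1
    exact Finset.prod_congr rfl fun l _ => by rw [Complex.norm_real, Real.norm_of_nonneg (hl l).le]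
  rw [h2]
  refine mul_le_mul_of_nonneg_left ((hadamard B).trans_eq ?_) (Finset.prod_nonneg fun l _ => (hl l).le)
  refine Finset.prod_congr rfl fun i _ => ?_
  congr 1
  refine Finset.sum_congr rfl fun l _ => ?_
  simp only [B, Matrix.of_apply, norm_div, Complex.norm_real, Real.norm_of_nonneg (hl l).le]

theorem norm_top_list_le (lm : Fin N → ℝ) (hl : ∀ l, 0 < lm l) (T : List (Fin N → ℂ)) :
    ‖top N (T.map io).prod‖ ≤ (∏ l, lm l) * (T.map fun v => √(∑ l, (‖v l‖ / lm l) ^ 2)).prod := by
  obtain ⟨k, v, rfl⟩ : ∃ (k : ℕ) (v : Fin k → Fin N → ℂ), T = List.ofFn v :=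
    ⟨T.length, T.get, (List.ofFn_get T).symm⟩
  have e : ((List.ofFn v).map io).prod = ιMulti ℂ k v := by
    rw [ιMulti_apply, List.map_ofFn]; rfl
  rw [e, List.map_ofFn, List.prod_ofFn]
  by_cases hk : k = N
  · subst hk
    rw [top_ιMulti]
    exact hadamard_scaled (Matrix.of v) lm hl
  · rw [top_ιMulti_ne hk, norm_zero]
    exact mul_nonneg (Finset.prod_nonneg fun l _ => (hl l).le)
      (Finset.prod_nonneg fun i _ => Real.sqrt_nonneg _)

theorem norm_top_multi_le (lm : Fin N → ℝ) (hl : ∀ l, 0 < lm l) (k : ℕ) (a₀ : Fin N → ℂ)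
    (a b : Fin k → Fin N → ℂ) :
    ‖top N (io a₀ * (ιMulti ℂ k a * ιMulti ℂ k b))‖ ≤ (∏ l, lm l) * (√(∑ l, (‖a₀ l‖ / lm l) ^ 2) *
      ((∏ j, √(∑ l, (‖a j l‖ / lm l) ^ 2)) * ∏ j, √(∑ l, (‖b j l‖ / lm l) ^ 2))) := by
  have h := norm_top_list_le lm hl (a₀ :: (List.ofFn a ++ List.ofFn b))
  simp only [List.map_cons, List.map_append, List.prod_cons, List.prod_append, List.map_ofFn] at h
  rw [List.prod_ofFn (f := (fun v : Fin N → ℂ => √(∑ l, (‖v l‖ / lm l) ^ 2)) ∘ a),
    List.prod_ofFn (f := (fun v : Fin N → ℂ => √(∑ l, (‖v l‖ / lm l) ^ 2)) ∘ b)] at h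
  rw [ιMulti_apply, ιMulti_apply]
  exact h

theorem extb_crude (M : Matrix (Fin N) (Fin N) ℂ) {K : ℝ} (hK : 0 ≤ K) (hM : ∀ i l, ‖M i l‖ ≤ K) (k : ℕ) :
    ∀ T : List (Fin N → ℂ), ‖top N ((T.map io).prod * om M ^ k)‖ ≤
      (T.map fun v => √(∑ l, ‖v l‖ ^ 2)).prod * ((N : ℝ) ^ 2 * K) ^ k := by
  induction k with
  | zero =>
    intro T
    simpa using norm_top_list_le (fun _ => 1) (fun _ => one_pos) T
  | succ k ih =>
    intro T
    have hP : 0 ≤ (T.map fun v => √(∑ l, ‖v l‖ ^ 2)).prod :=
      List.prod_nonneg fun x hx => by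
        obtain ⟨v, -, rfl⟩ := List.mem_map.1 hx
        exact Real.sqrt_nonneg _
    have hs : ∀ i : Fin N, √(∑ l, ‖(Pi.single i (1 : ℂ) : Fin N → ℂ) l‖ ^ 2) = 1 := by
      intro i
      rw [Finset.sum_eq_single i (fun l _ hl => by simp [hl]) (by simp)]
      simp
    have e : (T.map io).prod * om M ^ (k + 1) = ∑ i, ∑ l, M i l •
        (((T ++ [Pi.single i 1, Pi.single l 1]).map io).prod * om M ^ k) := by
      rw [pow_succ', ← mul_assoc]
      nth_rewrite 1 [om]
      simp only [Finset.mul_sum, Finset.sum_mul, mul_smul_comm, smul_mul_assoc, List.map_append,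
        List.prod_append, List.map_cons, List.map_nil, List.prod_cons, List.prod_nil, mul_one]
    rw [e, map_sum]
    refine (norm_sum_le _ _).trans ?_
    have hb : ∀ i l : Fin N, ‖top N (M i l •
        (((T ++ [Pi.single i 1, Pi.single l 1]).map io).prod * om M ^ k))‖ ≤
        K * ((T.map fun v => √(∑ l, ‖v l‖ ^ 2)).prod * ((N : ℝ) ^ 2 * K) ^ k) := by
      intro i l
      rw [map_smul, norm_smul]
      refine mul_le_mul (hM i l) ((ih _).trans_eq ?_) (norm_nonneg _) hK
      simp only [List.map_append, List.prod_append, List.map_cons, List.map_nil, List.prod_cons,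
        List.prod_nil, hs, mul_one]
    have hb2 : ∀ i : Fin N, ‖top N (∑ l, M i l •
        (((T ++ [Pi.single i 1, Pi.single l 1]).map io).prod * om M ^ k))‖ ≤ ∑ _l : Fin N,
        K * ((T.map fun v => √(∑ l, ‖v l‖ ^ 2)).prod * ((N : ℝ) ^ 2 * K) ^ k) := by
      intro i
      rw [map_sum]
      exact (norm_sum_le _ _).trans (Finset.sum_le_sum fun l _ => hb i l)
    refine (Finset.sum_le_sum fun i _ => hb2 i).trans_eq ?_
    simp only [Finset.sum_const, Finset.card_univ, Fintype.card_fin, nsmul_eq_mul]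
    ring

/-- crude bound: a product of one-forms and a power of a two-form with bounded coefficients -/
theorem norm_top_crude (T : List (Fin N → ℂ)) (M : Matrix (Fin N) (Fin N) ℂ) (k : ℕ) {K : ℝ} (hK : 0 ≤ K)
    (hT : ∀ v ∈ T, ∀ l, ‖v l‖ ≤ K) (hM : ∀ i l, ‖M i l‖ ≤ K) :
    ‖top N ((T.map io).prod * om M ^ k)‖ ≤ (N * K) ^ T.length * ((N : ℝ) ^ 2 * K) ^ k := by
  refine (extb_crude M hK hM k T).trans (mul_le_mul_of_nonneg_right ?_ (by positivity))
  induction T with
  | nil => simp
  | cons v T ih =>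
    rw [List.map_cons, List.prod_cons, List.length_cons, pow_succ']
    refine mul_le_mul ?_ (ih fun w hw => hT w (List.mem_cons_of_mem _ hw)) ?_ (by positivity)
    · refine Real.sqrt_le_iff.2 ⟨by positivity, ?_⟩
      have h1 : ∑ l, ‖v l‖ ^ 2 ≤ ∑ _l : Fin N, K ^ 2 := Finset.sum_le_sum fun l _ =>
        pow_le_pow_left₀ (norm_nonneg _) (hT v List.mem_cons_self l) 2
      have h2 : (N : ℝ) ≤ (N : ℝ) ^ 2 := by exact_mod_cast Nat.le_self_pow two_ne_zero N
      simp only [Finset.sum_const, Finset.card_univ, Fintype.card_fin, nsmul_eq_mul] at h1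
      rw [mul_pow]
      exact h1.trans (mul_le_mul_of_nonneg_right h2 (by positivity))
    · exact List.prod_nonneg fun x hx => by
        obtain ⟨v, -, rfl⟩ := List.mem_map.1 hx
        exact Real.sqrt_nonneg _

end Crest.Agent.R192
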