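import Crest.Agent.R192.Br

/-!
R192/Ker: elementary facts on the kernels and cut-offs.  Part a: general kernels.  Part b: the kernels of `Par`.
-/

set_option autoImplicit false

open MeasureTheory Complex Filter Topology
open scoped ContDiff

noncomputable section

namespace Crest.Agent.R192

/-! ### part a -/

theorem contDiff_cutf (a : ℝ) : ContDiff ℝ ∞ (cutf a) := by
  exact contDiff_const.sub (Real.smoothTransition.contDiff.comp (contDiff_id.sub contDiff_const))
theorem cutf_nonneg (a s : ℝ) : 0 ≤ cutf a s := by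
  exact sub_nonneg.2 (Real.smoothTransition.le_one _)
theorem cutf_le_one (a s : ℝ) : cutf a s ≤ 1 := by
  exact sub_le_self _ (Real.smoothTransition.nonneg _)
theorem cutf_eq_one {a s : ℝ} (h : s ≤ a) : cutf a s = 1 := by
  rw [cutf, st, Real.smoothTransition.zero_of_nonpos (sub_nonpos.2 h), sub_zero]
theorem cutf_eq_zero {a s : ℝ} (h : a + 1 ≤ s) : cutf a s = 0 := by
  rw [cutf, st, Real.smoothTransition.one_of_one_le (by linarith), sub_self]
theorem deriv_cutf_eq_zero {a s : ℝ} (h : a + 1 ≤ s) : deriv (cutf a) s = 0 := by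
  exact IsLocalMin.deriv_eq_zero (Eventually.of_forall fun t => (cutf_eq_zero h).trans_le (cutf_nonneg a t))
theorem abs_deriv_cutf_le (a s : ℝ) : |deriv (cutf a) s| ≤ Th := by
  have : deriv (cutf a) s = -deriv st (s - a) := by
    rw [← deriv_comp_sub_const]; exact deriv_const_sub _
  rw [this, abs_neg]
  exact abs_deriv_st_le _

theorem Cdf.mem_Icc {κ : ℝ → ℝ} {w : ℝ} (hκ : Cdf κ w) (s : ℝ) : κ s ∈ Set.Icc (0 : ℝ) 1 := by
  exact ⟨(hκ.left _ (min_le_right s 0)).symm.trans_le (hκ.mono (min_le_left _ _)),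
    (hκ.mono (le_max_left s w)).trans_eq (hκ.right _ (le_max_right _ _))⟩

theorem Cdf.deriv_eq_zero {κ : ℝ → ℝ} {w : ℝ} (hκ : Cdf κ w) {s : ℝ} (hs : s ≤ 0 ∨ w ≤ s) :
    deriv κ s = 0 := by
  rcases hs with hs | hs
  · exact IsLocalMin.deriv_eq_zero (Eventually.of_forall fun t => (hκ.left s hs).trans_le (hκ.mem_Icc t).1)
  · exact IsLocalMax.deriv_eq_zero (Eventually.of_forall fun t => (hκ.mem_Icc t).2.trans_eq (hκ.right s hs).symm)

theorem Cdf.continuous_dk {κ : ℝ → ℝ} {w : ℝ} (hκ : Cdf κ w) : Continuous (dk κ) := by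
  have h := hκ.smooth.continuous_deriv (by simp)
  exact h.add (h.comp (continuous_add_const 1))

theorem Cdf.dk_nonneg {κ : ℝ → ℝ} {w : ℝ} (hκ : Cdf κ w) (s : ℝ) : 0 ≤ dk κ s :=
  add_nonneg (hκ.deriv_nonneg _) (hκ.deriv_nonneg _)

theorem Cdf.integral_dk_le {κ : ℝ → ℝ} {w : ℝ} (hκ : Cdf κ w) (a : ℝ) :
    ∫ σ in (0 : ℝ)..1, dk κ (a - σ) ≤ 2 := by
  have hd : ∀ s, HasDerivAt κ (deriv κ s) s := fun s => (hκ.smooth.differentiable (by simp) s).hasDerivAt
  rw [intervalIntegral.integral_eq_sub_of_hasDerivAt (f := fun σ => -(κ (a - σ) + κ (a - σ + 1)))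
    (f' := fun σ => dk κ (a - σ))
    (fun σ _ => (((hd _).comp σ ((hasDerivAt_id' σ).const_sub a)).add
      ((hd _).comp σ (((hasDerivAt_id' σ).const_sub a).add_const 1))).neg.congr_deriv (by rw [dk]; ring))
    ((hκ.continuous_dk.comp (continuous_const.sub continuous_id)).intervalIntegrable _ _)]
  linarith [(hκ.mem_Icc (a - 1)).1, (hκ.mem_Icc (a - 1 + 1)).1, (hκ.mem_Icc (a - 0)).2,
    (hκ.mem_Icc (a - 0 + 1)).2]

theorem deriv_Kt {κ₀ κ : ℝ → ℝ} {w₀ w : ℝ} (h₀ : Cdf κ₀ w₀) (h : Cdf κ w) :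
    deriv (Kt κ₀ κ) = fun s => κ₀ s - κ s := by
  exact funext fun s => (h₀.smooth.continuous.sub h.smooth.continuous).deriv_integral _ 0 s

theorem adm_Kt {κ₀ κ : ℝ → ℝ} {w₀ w : ℝ} (h₀ : Cdf κ₀ w₀) (h : Cdf κ w) : Adm (Kt κ₀ κ) := by
  have hc : Continuous fun u => κ₀ u - κ u := h₀.smooth.continuous.sub h.smooth.continuous
  refine ⟨contDiff_infty_iff_deriv.2 ⟨fun s => (hc.integral_hasStrictDerivAt 0 s).hasDerivAt.differentiableAt,
    by rw [deriv_Kt h₀ h]; exact h₀.smooth.sub h.smooth⟩, fun s hs => ?_, fun s hs => ?_⟩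
  · simp only [Kt, intervalIntegral.integral_same]
    rw [intervalIntegral.integral_congr (g := fun _ => 0) fun u hu => ?_, intervalIntegral.integral_zero]
    rw [Set.uIcc_of_ge hs] at hu
    simp only [h₀.left u hu.2, h.left u hu.2, sub_self]
  · simp only [Kt]
    rw [← intervalIntegral.integral_add_adjacent_intervals (b := 1 / 2) (hc.intervalIntegrable _ _)
      (hc.intervalIntegrable _ _), add_eq_left,
      intervalIntegral.integral_congr (g := fun _ => 0) fun u hu => ?_, intervalIntegral.integral_zero]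
    rw [Set.uIcc_of_le hs] at hu
    simp only [h₀.right u (h₀.le_half.trans hu.1), h.right u (h.le_half.trans hu.1), sub_self]

theorem cdf_st {a τ : ℝ} (ha : 0 ≤ a) (hτ : 0 < τ) (h : a + τ ≤ 1 / 2) :
    Cdf (fun s => st ((s - a) / τ)) (a + τ) := by
  exact ⟨Real.smoothTransition.contDiff.comp ((contDiff_id.sub contDiff_const).div_const τ),
    fun s t hst => Real.smoothTransition.monotone (by gcongr),
    fun s hs => Real.smoothTransition.zero_of_nonpos (div_nonpos_of_nonpos_of_nonneg (by linarith) hτ.le),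
    fun s hs => Real.smoothTransition.one_of_one_le ((one_le_div hτ).2 (by linarith)), h⟩

/-! ### part b -/

variable {G : Type} [Group G] {L : Len G} {P : Par}

theorem Valid.m_pos (h : Valid L P) : 1 ≤ P.m :=
  le_trans (Nat.mul_pos (Nat.mul_pos two_pos (Nat.succ_pos _)) h.T1_pos) h.m_ge
theorem Valid.tau_pos (h : Valid L P) : 0 < P.tau :=
  div_pos (Nat.cast_pos.2 h.T1_pos) (Nat.cast_pos.2 h.m_pos)
theorem Valid.tau_le (h : Valid L P) : (P.q + 1) * P.tau ≤ 1 / 2 := by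
  have h1 : (2 * (P.q + 1) * P.T1 : ℝ) ≤ P.m := by exact_mod_cast h.m_ge
  rw [Par.tau, ← mul_div_assoc, div_le_iff₀ (Nat.cast_pos.2 h.m_pos)]
  linarith
theorem Valid.tau0_pos (h : Valid L P) : 0 < P.tau0 := by
  have h1 : (0 : ℝ) < P.m := Nat.cast_pos.2 h.m_pos
  have h2 : (0 : ℝ) < P.R' := Nat.cast_pos.2 (Nat.succ_pos _)
  unfold Par.tau0
  positivity
theorem Valid.tau0_le (h : Valid L P) : P.tau0 ≤ P.tau := by
  have h1 : (0 : ℝ) < P.m := Nat.cast_pos.2 h.m_pos
  have h2 : (1 : ℝ) ≤ P.R' := Nat.one_le_cast.2 (Nat.succ_pos _)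
  have h3 : (1 : ℝ) ≤ P.T1 := Nat.one_le_cast.2 h.T1_pos
  rw [Par.tau0, Par.tau, ← div_div]
  refine div_le_div_of_nonneg_right (le_trans ?_ h3) h1.le
  rw [div_le_one (by linarith)]
  linarith
theorem Valid.cdf_k1 (h : Valid L P) {b : ℕ} (hb : b ≤ P.q) : Cdf (P.k1 b) ((b + 1) * P.tau) := by
  have hτ := h.tau_pos
  have hb' : (b : ℝ) ≤ P.q := Nat.cast_le.2 hb
  rw [add_mul, one_mul]
  exact cdf_st (by positivity) hτ (by nlinarith [h.tau_le])
theorem kerb_avg {f : ℕ → ℝ → ℝ} {n : ℕ} (hn : 1 ≤ n) {w : ℝ} (hw : w ≤ 1 / 2)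
    (hf : ∀ b < n, ∃ w', Cdf (f b) w' ∧ w' ≤ w) : Cdf (fun s => (∑ b ∈ Finset.range n, f b s) / n) w := by
  have hn' : (0 : ℝ) < n := Nat.cast_pos.2 hn
  choose w' h1 h2 using hf
  refine ⟨(ContDiff.sum fun b hb => (h1 b (Finset.mem_range.1 hb)).smooth).div_const _, fun s t hst => ?_,
    fun s hs => ?_, fun s hs => ?_, hw⟩
  · exact div_le_div_of_nonneg_right
      (Finset.sum_le_sum fun b hb => (h1 b (Finset.mem_range.1 hb)).mono hst) hn'.le
  · rw [Finset.sum_eq_zero fun b hb => (h1 b (Finset.mem_range.1 hb)).left s hs, zero_div]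
  · rw [Finset.sum_congr rfl fun b hb => (h1 b (Finset.mem_range.1 hb)).right s
      ((h2 b (Finset.mem_range.1 hb)).trans hs)]
    simp [hn'.ne']

theorem Valid.cdf_kk (h : Valid L P) : Cdf P.kk (P.q * P.tau) := by
  have hτ := h.tau_pos
  refine kerb_avg h.q_pos (by nlinarith [h.tau_le]) fun b hb => ⟨_, h.cdf_k1 hb.le, ?_⟩
  exact mul_le_mul_of_nonneg_right (by exact_mod_cast hb) hτ.le
theorem Valid.cdf_kp (h : Valid L P) : Cdf P.kp ((P.q + 1) * P.tau) := by
  have hτ := h.tau_pos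
  refine kerb_avg (f := fun b => P.k1 (b + 1)) h.q_pos h.tau_le fun b hb => ⟨_, h.cdf_k1 hb, ?_⟩
  exact mul_le_mul_of_nonneg_right (by exact_mod_cast Nat.succ_le_succ hb) hτ.le
theorem Valid.cdf_kz (h : Valid L P) : Cdf P.kz P.tau0 := by
  have h1 : (0 : ℝ) ≤ P.q := Nat.cast_nonneg _
  have := cdf_st (a := 0) le_rfl h.tau0_pos (by nlinarith [h.tau_le, h.tau0_le, h.tau_pos])
  simp only [sub_zero, zero_add] at this
  exact this
theorem Valid.cdf_p1 (h : Valid L P) : Cdf P.p1 (2 * P.tau) := by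
  have hτ := h.tau_pos
  have h1 : (1 : ℝ) ≤ P.q := Nat.one_le_cast.2 h.q_pos
  have := kerb_avg (f := P.k1) (n := 2) (w := 2 * P.tau) one_le_two (by nlinarith [h.tau_le]) fun b hb =>
    ⟨_, h.cdf_k1 ((Nat.lt_succ_iff.1 hb).trans h.q_pos),
      mul_le_mul_of_nonneg_right (by exact_mod_cast hb) hτ.le⟩
  simp only [Finset.sum_range_succ, Finset.sum_range_zero, zero_add, Nat.cast_ofNat] at this
  exact this

theorem Valid.wt_kk (h : Valid L P) {n : ℕ} (σ : ℝ) (v : Fin (n + 1) → ℝ) (p : Fin 2 × Fin (n + 1)) :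
    wt P.kk σ v p = (∑ b ∈ Finset.range P.q, wt (P.k1 b) σ v p) / P.q := by
  simp only [wt, Par.kk, Finset.sum_sub_distrib, sub_div]

theorem kerb_has (P : Par) (b : ℕ) (s : ℝ) :
    HasDerivAt (P.k1 b) (deriv st ((s - b * P.tau) / P.tau) / P.tau) s := by
  have h1 : HasDerivAt st (deriv st ((s - b * P.tau) / P.tau)) ((s - b * P.tau) / P.tau) :=
    ((Real.smoothTransition.contDiff (n := 1)).differentiable one_ne_zero _).hasDerivAt
  have h2 := h1.comp s (((hasDerivAt_id s).sub_const (b * P.tau)).div_const P.tau)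
  rw [mul_one_div] at h2
  exact h2

theorem kerb_deriv (P : Par) (c : ℕ) (s : ℝ) :
    deriv (fun s => (∑ b ∈ Finset.range P.q, P.k1 (b + c) s) / P.q) s =
      (∑ b ∈ Finset.range P.q, deriv (P.k1 (b + c)) s) / P.q :=
  ((HasDerivAt.fun_sum fun b _ => (kerb_has P (b + c) s).differentiableAt.hasDerivAt).div_const _).deriv

theorem Valid.dk_kk (h : Valid L P) (s : ℝ) :
    dk P.kk s = (∑ b ∈ Finset.range P.q, dk (P.k1 b) s) / P.q := by
  simp only [dk, Finset.sum_add_distrib, add_div]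
  exact congrArg₂ (· + ·) (kerb_deriv P 0 s) (kerb_deriv P 0 (s + 1))

theorem Valid.dk_kp (h : Valid L P) (s : ℝ) :
    dk P.kp s = (∑ b ∈ Finset.range P.q, dk (P.k1 (b + 1)) s) / P.q := by
  simp only [dk, Finset.sum_add_distrib, add_div]
  exact congrArg₂ (· + ·) (kerb_deriv P 1 s) (kerb_deriv P 1 (s + 1))

theorem Valid.continuous_kb (h : Valid L P) : Continuous P.kb :=
  h.cdf_kk.continuous_dk.add h.cdf_kp.continuous_dk

theorem Valid.kb_nonneg (h : Valid L P) (s : ℝ) : 0 ≤ P.kb s :=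
  add_nonneg (h.cdf_kk.dk_nonneg s) (h.cdf_kp.dk_nonneg s)

theorem Valid.dk_kk_le (h : Valid L P) (s : ℝ) : dk P.kk s ≤ P.kb s :=
  le_add_of_nonneg_right (h.cdf_kp.dk_nonneg s)

theorem kerb_le (h : Valid L P) (c : ℕ) (s : ℝ) :
    deriv (fun s => (∑ b ∈ Finset.range P.q, P.k1 (b + c) s) / P.q) s ≤ Th / (P.q * P.tau) := by
  have hτ := h.tau_pos
  have hT : 0 ≤ Th / P.tau := div_nonneg (zero_le_one.trans one_le_Th) hτ.le
  rw [kerb_deriv, mul_comm, ← div_div]
  refine div_le_div_of_nonneg_right ?_ (Nat.cast_nonneg _)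
  have h1 : ∀ b, deriv (P.k1 (b + c)) s ≤ if b = ⌊s / P.tau⌋₊ - c then Th / P.tau else 0 := fun b => by
    split_ifs with hb
    · rw [(kerb_has P _ s).deriv]
      exact div_le_div_of_nonneg_right ((le_abs_self _).trans (abs_deriv_st_le _)) hτ.le
    · refine le_of_eq ?_
      by_cases h2 : (s - (b + c : ℕ) * P.tau) / P.tau ≤ 0
      · refine IsLocalMin.deriv_eq_zero (Eventually.of_forall fun t => ?_)
        simp only [Par.k1, Real.smoothTransition.zero_of_nonpos h2]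
        exact Real.smoothTransition.nonneg _
      by_cases h3 : 1 ≤ (s - (b + c : ℕ) * P.tau) / P.tau
      · refine IsLocalMax.deriv_eq_zero (Eventually.of_forall fun t => ?_)
        simp only [Par.k1, Real.smoothTransition.one_of_one_le h3]
        exact Real.smoothTransition.le_one _
      rw [sub_div, mul_div_cancel_right₀ _ hτ.ne', not_le] at h2 h3
      have h4 : ⌊s / P.tau⌋₊ = b + c := by
        have h5 : (0 : ℝ) ≤ (b + c : ℕ) := Nat.cast_nonneg _
        rw [Nat.floor_eq_iff (by linarith)]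
        constructor <;> linarith
      exact absurd (by omega) hb
  refine (Finset.sum_le_sum fun b _ => h1 b).trans ?_
  rw [Finset.sum_ite_eq']
  split_ifs
  · exact le_rfl
  · exact hT

/-- `deriv (k1 b) s ≤ Th / tau`, and it vanishes unless `s ∈ (b tau, (b+1) tau)`: at most one `b` for each `s`. -/
theorem Valid.kb_le (h : Valid L P) (s : ℝ) : P.kb s ≤ 8 * Th / (P.q * P.tau) := by
  have h0 : 0 ≤ Th / (P.q * P.tau) :=
    div_nonneg (zero_le_one.trans one_le_Th) (mul_nonneg (Nat.cast_nonneg _) h.tau_pos.le)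
  have h1 : deriv P.kk s ≤ _ := kerb_le h 0 s
  have h2 : deriv P.kk (s + 1) ≤ _ := kerb_le h 0 (s + 1)
  have h3 : deriv P.kp s ≤ _ := kerb_le h 1 s
  have h4 : deriv P.kp (s + 1) ≤ _ := kerb_le h 1 (s + 1)
  rw [mul_div_assoc, Par.kb, dk, dk]
  linarith

theorem Valid.integral_kb_le (h : Valid L P) (a : ℝ) : ∫ σ in (0 : ℝ)..1, P.kb (a - σ) ≤ 4 := by
  have h1 := h.cdf_kk.continuous_dk
  have h2 := h.cdf_kp.continuous_dk
  simp only [Par.kb]
  rw [intervalIntegral.integral_add (Continuous.intervalIntegrable (by fun_prop) _ _)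
    (Continuous.intervalIntegrable (by fun_prop) _ _)]
  linarith [h.cdf_kk.integral_dk_le a, h.cdf_kp.integral_dk_le a]

theorem Valid.integral_kb_sq_le (h : Valid L P) (a : ℝ) :
    ∫ σ in (0 : ℝ)..1, P.kb (a - σ) ^ 2 ≤ 32 * Th / (P.q * P.tau) := by
  have h0 : 0 ≤ 8 * Th / (P.q * P.tau) := (h.kb_nonneg 0).trans (h.kb_le 0)
  have h1 := h.continuous_kb
  calc _ ≤ ∫ σ in (0 : ℝ)..1, 8 * Th / (P.q * P.tau) * P.kb (a - σ) :=
        intervalIntegral.integral_mono_on zero_le_one (Continuous.intervalIntegrable (by fun_prop) _ _)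
          (Continuous.intervalIntegrable (by fun_prop) _ _) fun σ _ => by
            rw [sq]
            exact mul_le_mul_of_nonneg_right (h.kb_le _) (h.kb_nonneg _)
    _ ≤ 8 * Th / (P.q * P.tau) * 4 := by
        rw [intervalIntegral.integral_const_mul]
        exact mul_le_mul_of_nonneg_left (h.integral_kb_le a) h0
    _ = _ := by ring

end Crest.Agent.R192
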