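import Crest.Agent.R192.Defs

/-!
R192/Lab: truncated metric, labels (orbits of `⟨g⟩`), nearest points, characters.
Part a: `dT`, `lab`, `lsm`, `dJ`, `npt`.  Part b: neighbourhoods and `Good`.  Part c: characters and phases.
-/

set_option autoImplicit false

open MeasureTheory Complex

noncomputable section

namespace Crest.Agent.R192
variable {G : Type} [Group G] (L : Len G) (P : Par) {g : G}

/-! ### part a -/

theorem Len.countable (L : Len G) : Countable G := by
  refine Set.countable_univ_iff.1 ((Set.countable_iUnion fun r => (L.fin r).countable).mono fun x _ => ?_)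
  exact Set.mem_iUnion.2 ⟨L.l x, le_refl (L.l x)⟩

theorem dT_nonneg (R : ℕ) (y y' : G) : 0 ≤ dT L R y y' := Nat.cast_nonneg _
theorem dT_le (R : ℕ) (y y' : G) : dT L R y y' ≤ R := by
  exact Nat.cast_le.2 (min_le_right _ _)
theorem dT_self (R : ℕ) (y : G) : dT L R y y = 0 := by
  simp [dT, L.l_one]
theorem dT_comm (R : ℕ) (y y' : G) : dT L R y y' = dT L R y' y := by
  rw [dT, dT, ← L.l_inv, mul_inv_rev, inv_inv]
theorem dT_triangle (R : ℕ) (y y' y'' : G) : dT L R y y'' ≤ dT L R y y' + dT L R y' y'' := by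
  have h := L.l_mul (y⁻¹ * y') (y'⁻¹ * y'')
  rw [mul_assoc, mul_inv_cancel_left] at h
  unfold dT
  exact_mod_cast (by omega : min (L.l (y⁻¹ * y'')) R ≤ min (L.l (y⁻¹ * y')) R + min (L.l (y'⁻¹ * y'')) R)
theorem dT_mul (R : ℕ) (c y y' : G) : dT L R (c * y) (c * y') = dT L R y y' := by
  rw [dT, dT, mul_inv_rev, mul_assoc, inv_mul_cancel_left]
theorem abs_dT_sub_le (R : ℕ) (y a b : G) : |dT L R y a - dT L R y b| ≤ dT L R a b := by
  have h1 := dT_triangle L R y a b
  have h2 := dT_triangle L R y b a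
  rw [dT_comm L R b a] at h2
  exact abs_le.2 ⟨by linarith, by linarith⟩
theorem one_le_lam (R : ℕ) {n : ℕ} (x : Fin (n + 1) → G) (l : Fin (n + 1)) : 1 ≤ lam L R g x l :=
  le_max_left _ _
theorem lam_le {R : ℕ} (hR : 1 ≤ R) {n : ℕ} (x : Fin (n + 1) → G) (l : Fin (n + 1)) : lam L R g x l ≤ R := by
  exact max_le (by exact_mod_cast hR) (Nat.cast_le.2 (min_le_right _ _))
theorem dT_pv_le_lam (R : ℕ) {n : ℕ} (x : Fin (n + 1) → G) (l : Fin (n + 1)) (m : ℕ) :
    dT L R (g ^ m * pv g x l) (g ^ m * x l) ≤ lam L R g x l := by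
  rw [dT_mul]
  exact le_max_right _ _

theorem lab_eq_iff (x y : G) : lab g x = lab g y ↔ ∃ n : ℤ, y = g ^ n * x := Quotient.eq (r := labS g)
theorem lab_out (J : Lab g) : lab g J.out = J := Quotient.out_eq (s := labS g) J
theorem lab_zpow (n : ℤ) (x : G) : lab g (g ^ n * x) = lab g x := by
  exact ((lab_eq_iff _ _).2 ⟨n, rfl⟩).symm
theorem lsm_lab (c : G) (hc : Commute c g) (x : G) : lsm g c hc (lab g x) = lab g (c * x) := rfl
theorem lsm_zpow (n : ℤ) (hc : Commute (g ^ n) g) (J : Lab g) : lsm g (g ^ n) hc J = J := by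
  exact Quotient.inductionOn J fun x => lab_zpow n x
theorem lsm_zpow_mul (n : ℤ) (c : G) (hc : Commute c g) (hc' : Commute (g ^ n * c) g) :
    lsm g (g ^ n * c) hc' = lsm g c hc := by
  refine Equiv.ext fun J => Quotient.inductionOn J fun x => ?_
  change lab g (g ^ n * c * x) = lab g (c * x)
  rw [mul_assoc, lab_zpow]
theorem expo_spec (J : Lab g) {j : G} (h : lab g j = J) : j = g ^ expo J j * J.out := by
  exact Classical.epsilon_spec ((lab_eq_iff _ _).1 ((lab_out J).trans h.symm))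
theorem nu_spec (c : G) (hc : Commute c g) (J : Lab g) : c * J.out = g ^ nu c hc J * (lsm g c hc J).out := by
  exact expo_spec _ (by rw [← lsm_lab c hc, lab_out])

theorem laba_sel (J : Lab g) (y : G) :
    sel L (loc J y) ∈ loc J y ∧ ∀ b ∈ loc J y, L.l (sel L (loc J y)) ≤ L.l b := by
  have h0 : (loc J y).Nonempty := ⟨y⁻¹ * J.out, by
    show lab g (y * (y⁻¹ * J.out)) = J
    rw [mul_inv_cancel_left, lab_out]⟩
  obtain ⟨a, ha, hmin⟩ := (measure L.l).wf.has_min _ h0
  exact Classical.epsilon_spec (p := fun a => a ∈ loc J y ∧ ∀ b ∈ loc J y, L.l a ≤ L.l b)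
    ⟨a, ha, fun b hb => not_lt.1 (hmin b hb)⟩

theorem loc_lsm (c : G) (hc : Commute c g) (J : Lab g) (y : G) : loc (lsm g c hc J) (c * y) = loc J y := by
  ext a
  change lab g (c * y * a) = _ ↔ lab g (y * a) = J
  rw [mul_assoc, ← lsm_lab c hc, Equiv.apply_eq_iff_eq]
theorem loc_zpow (n : ℤ) (J : Lab g) (y : G) : loc J (g ^ n * y) = loc J y := by
  ext a
  change lab g (g ^ n * y * a) = _ ↔ lab g (y * a) = J
  rw [mul_assoc, lab_zpow]
theorem lab_npt (J : Lab g) (y : G) : lab g (npt L J y) = J := by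
  exact (laba_sel L J y).1
theorem dJ_eq (J : Lab g) (y : G) : dJ L J y = L.l (y⁻¹ * npt L J y) := by
  rw [npt, inv_mul_cancel_left, dJ]
theorem dJ_le (J : Lab g) (y : G) {j : G} (h : lab g j = J) : dJ L J y ≤ L.l (y⁻¹ * j) := by
  exact (laba_sel L J y).2 _ (show lab g (y * (y⁻¹ * j)) = J by rw [mul_inv_cancel_left, h])
theorem dJ_lab_self (c : G) : dJ L (lab g c) c = 0 := by
  have h := dJ_le L (lab g c) c rfl
  rw [inv_mul_cancel, L.l_one] at h
  omega
theorem dJ_lip (J : Lab g) (y y' : G) : dJ L J y ≤ dJ L J y' + L.l (y⁻¹ * y') := by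
  have h := L.l_mul (y⁻¹ * y') (y'⁻¹ * npt L J y')
  rw [mul_assoc, mul_inv_cancel_left, ← dJ_eq] at h
  have h1 := dJ_le L J y (lab_npt L J y')
  omega
theorem dJ_lsm (c : G) (hc : Commute c g) (J : Lab g) (y : G) : dJ L (lsm g c hc J) (c * y) = dJ L J y := by
  unfold dJ; rw [loc_lsm]
theorem dJ_zpow (n : ℤ) (J : Lab g) (y : G) : dJ L J (g ^ n * y) = dJ L J y := by
  unfold dJ; rw [loc_zpow]
theorem npt_lsm (c : G) (hc : Commute c g) (J : Lab g) (y : G) :
    npt L (lsm g c hc J) (c * y) = c * npt L J y := by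
  unfold npt; rw [loc_lsm, mul_assoc]
theorem npt_zpow (n : ℤ) (J : Lab g) (y : G) : npt L J (g ^ n * y) = g ^ n * npt L J y := by
  unfold npt; rw [loc_zpow, mul_assoc]
theorem dJ_lab_comm (c c' : G) : dJ L (lab g c) c' = dJ L (lab g c') c := by
  have key : ∀ c c' : G, dJ L (lab g c) c' ≤ dJ L (lab g c') c := fun c c' => by
    obtain ⟨n, hn⟩ := (lab_eq_iff _ _).1 (lab_npt L (lab g c') c).symm
    rw [dJ_eq L (lab g c'), hn, ← L.l_inv]
    refine (dJ_le L _ _ (lab_zpow (-n) c)).trans (le_of_eq ?_)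
    rw [mul_inv_rev, mul_inv_rev, inv_inv, zpow_neg, mul_assoc]
  exact le_antisymm (key c c') (key c' c)

theorem fJ_nonneg (J : Lab g) (y : G) : 0 ≤ fJ L P J y := Nat.cast_nonneg _
theorem fJ_le (J : Lab g) (y : G) : fJ L P J y ≤ P.R := by
  exact Nat.cast_le.2 (min_le_right _ _)
theorem abs_fJ_sub_le (J : Lab g) (y y' : G) : |fJ L P J y - fJ L P J y'| ≤ dT L P.R' y y' := by
  have h1 := dJ_lip L J y y'
  have h2 := dJ_lip L J y' y
  rw [← L.l_inv, mul_inv_rev, inv_inv] at h2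
  have h3 : P.R ≤ P.R' := by
    unfold Par.R' Par.Lam Par.R
    omega
  have h4 : ((min (dJ L J y) P.R : ℕ) : ℝ) ≤ (min (dJ L J y') P.R : ℕ) + (min (L.l (y⁻¹ * y')) P.R' : ℕ) := by
    exact_mod_cast (by omega : min (dJ L J y) P.R ≤ min (dJ L J y') P.R + min (L.l (y⁻¹ * y')) P.R')
  have h5 : ((min (dJ L J y') P.R : ℕ) : ℝ) ≤ (min (dJ L J y) P.R : ℕ) + (min (L.l (y⁻¹ * y')) P.R' : ℕ) := by
    exact_mod_cast (by omega : min (dJ L J y') P.R ≤ min (dJ L J y) P.R + min (L.l (y⁻¹ * y')) P.R')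
  unfold fJ dT
  exact abs_le.2 ⟨by linarith, by linarith⟩
theorem fJ_lsm (c : G) (hc : Commute c g) (J : Lab g) (y : G) :
    fJ L P (lsm g c hc J) (c * y) = fJ L P J y := by
  unfold fJ; rw [dJ_lsm]
theorem fJ_zpow (n : ℤ) (J : Lab g) (y : G) : fJ L P J (g ^ n * y) = fJ L P J y := by
  unfold fJ; rw [dJ_zpow]

/-! ### part b -/

theorem mem_nbh (r : ℕ) (c : G) (J : Lab g) : J ∈ nbh L g r c ↔ dJ L J c < r := by
  simp [nbh]
theorem card_nbh_le (r : ℕ) (c : G) : (nbh L g r c).card ≤ L.b ^ r := by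
  refine le_trans ?_ (L.card r)
  refine (Finset.card_le_card (t := (L.fin r).toFinset.image fun a => lab g (c * a)) fun J hJ => ?_).trans
    Finset.card_image_le
  refine Finset.mem_image.2 ⟨c⁻¹ * npt L J c, ?_, by rw [mul_inv_cancel_left, lab_npt]⟩
  rw [Set.Finite.mem_toFinset, Set.mem_ofPred_eq, ← dJ_eq]
  exact ((mem_nbh L r c J).1 hJ).le
theorem mem_UU (c : G) (J : Lab g) : J ∈ UU L P g c ↔ dJ L J c < 6 * P.rho := mem_nbh L _ c J
theorem card_UU_le (h : Valid L P) (c : G) : (UU L P g c).card ≤ P.GG := by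
  rw [h.GG_eq]; exact card_nbh_le L _ c
theorem lab_mem_UU (h : Valid L P) (c : G) : lab g c ∈ UU L P g c := by
  rw [mem_UU, dJ_lab_self]
  have := h.rho_pos
  omega
theorem mem_FF {n : ℕ} (x : Fin (n + 1) → G) (z : Lab g × Fin 2) :
    z ∈ FF L P g x ↔ ∃ i, dJ L z.1 (x i) < P.R := by
  simp [FF, mem_nbh]
theorem UU_pt_subset {n : ℕ} (x : Fin (n + 1) → G) (p : Fin 2 × Fin (n + 1)) :
    UU L P g (pt g x p) ×ˢ Finset.univ ⊆ FF L P g x := by
  intro z hz
  have h := (mem_UU L P _ _).1 (Finset.mem_product.1 hz).1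
  rw [pt, ← zpow_natCast, dJ_zpow] at h
  exact (mem_FF L P x z).2 ⟨p.2, h.trans_le (Nat.mul_le_mul_right _ (by norm_num))⟩
theorem UU_lsm (c : G) (hc : Commute c g) (y : G) :
    UU L P g (c * y) = (UU L P g y).map (lsm g c hc).toEmbedding := by
  ext J
  rw [Finset.mem_map_equiv, mem_UU, mem_UU, ← dJ_lsm L c hc ((lsm g c hc).symm J) y, Equiv.apply_symm_apply]
theorem one_le_lev (s : Sg P) : 1 ≤ lev P s := by
  rw [lev, one_le_div (by positivity)]
  exact_mod_cast s.1.2
theorem lev_le (s : Sg P) : lev P s ≤ P.GG := by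
  exact div_le_self (Nat.cast_nonneg _) (le_add_of_nonneg_left (Nat.cast_nonneg _))

/-- number of short sample paths: induction on the length (`∑_l b^l (2b)^(Λ-l) 2^q ≤ (2b)^Λ 2^(q+1)`) -/
theorem net_aux (q Λ : ℕ) (c : G) : ∃ T : Finset (Fin q → G), T.card ≤ (2 * L.b) ^ Λ * 2 ^ q ∧
    ∀ y : Fin q → G,
      ∑ b : Fin q, L.l (((Fin.cons c y : Fin (q + 1) → G) b.castSucc)⁻¹ * y b) ≤ Λ → y ∈ T := by
  classical
  induction q generalizing Λ c with
  | zero =>
    refine ⟨Finset.univ, ?_, fun y _ => Finset.mem_univ y⟩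
    rw [Finset.card_univ, Fintype.card_unique, pow_zero, mul_one]
    exact Nat.one_le_pow _ _ (by have := L.two_le; omega)
  | succ q ih =>
    choose T hT hy using ih
    refine ⟨(Finset.range (Λ + 1)).biUnion fun l => (L.fin l).toFinset.biUnion fun a =>
      (T (Λ - l) (c * a)).image fun w => (Fin.cons (c * a) w : Fin (q + 1) → G), ?_, fun y h => ?_⟩
    · refine Finset.card_biUnion_le.trans ((Finset.sum_le_sum (g := fun l => L.b ^ Λ * 2 ^ q * 2 ^ (Λ - l))
        fun l hl => ?_).trans ?_)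
      · refine (Finset.card_biUnion_le_card_mul _ _ _ fun a _ => Finset.card_image_le.trans (hT _ _)).trans
          ((Nat.mul_le_mul_right _ (L.card l)).trans (le_of_eq ?_))
        obtain ⟨k, rfl⟩ := Nat.exists_eq_add_of_le (Nat.lt_succ_iff.1 (Finset.mem_range.1 hl))
        rw [Nat.add_sub_cancel_left]
        ring
      · rw [← Finset.mul_sum, Finset.sum_flip fun k => 2 ^ k]
        refine (Nat.mul_le_mul_left _ (Nat.geomSum_lt (n := Λ + 1) le_rfl fun k hk => Finset.mem_range.1 hk).le).trans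
          (le_of_eq ?_)
        ring
    · rw [Fin.sum_univ_succ] at h
      simp only [Fin.castSucc_zero, Fin.cons_zero, ← Fin.succ_castSucc, Fin.cons_succ] at h
      simp only [Finset.mem_biUnion, Finset.mem_range, Set.Finite.mem_toFinset, Set.mem_ofPred_eq, Finset.mem_image]
      refine ⟨L.l (c⁻¹ * y 0), by omega, c⁻¹ * y 0, le_rfl, Fin.tail y, hy _ _ _ ?_, ?_⟩
      · rw [mul_inv_cancel_left, Fin.cons_self_tail]
        exact Nat.le_sub_of_add_le' h
      · rw [mul_inv_cancel_left, Fin.cons_self_tail]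

/-- `Good` is equivariant: `y ↦ c • y` is a bijection `net y₀ → net (c * y₀)`. -/
theorem good_lsm (c : G) (hc : Commute c g) (η : Lab g → Sg P) (y : G) :
    Good L P (fun J => η ((lsm g c hc).symm J)) (c * y) ↔ Good L P η y := by
  have hs : Function.Surjective fun (w : Fin P.q → G) b => c * w b := fun w =>
    ⟨fun b => c⁻¹ * w b, funext fun b => mul_inv_cancel_left c (w b)⟩
  have hn : ∀ w : Fin P.q → G, (fun b => c * w b) ∈ net L P (c * y) ↔ w ∈ net L P y := fun w => by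
    have e : ∀ b, (Fin.cons (c * y) fun b => c * w b : Fin (P.q + 1) → G) b =
        c * (Fin.cons y w : Fin (P.q + 1) → G) b := fun b => Fin.cases rfl (fun _ => rfl) b
    simp only [net, Set.mem_ofPred_eq, e, mul_inv_rev, mul_assoc, inv_mul_cancel_left]
  have hE : ∀ (J : Lab g) (w : Fin P.q → G), Eh L P (lsm g c hc J) (fun b => c * w b) = Eh L P J w := fun J w => by
    simp only [Eh, fJ_lsm]
  refine and_congr (hs.forall.trans (forall_congr' fun w => ?_)) ?_
  · simp only [hn, mh, UU_lsm L P c hc, Finset.sum_map, Equiv.coe_toEmbedding, hE, Equiv.symm_apply_apply]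
  · rw [UU_lsm L P c hc]
    refine ⟨fun h a ha b hb hab => (lsm g c hc).injective (h (Finset.mem_map_of_mem _ ha) (Finset.mem_map_of_mem _ hb)
      (by simpa using hab)), fun h a ha b hb hab => (lsm g c hc).symm.injective
        (h (Finset.mem_map_equiv.1 ha) (Finset.mem_map_equiv.1 hb) hab)⟩

theorem good_congr {η η' : Lab g → Sg P} {c : G} (h : ∀ J ∈ UU L P g c, η J = η' J) :
    Good L P η c ↔ Good L P η' c := by
  have e : ∀ F : Sg P → Lab g → ℝ, ∑ J ∈ UU L P g c, F (η J) J = ∑ J ∈ UU L P g c, F (η' J) J := fun F =>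
    Finset.sum_congr rfl fun J hJ => by rw [h J hJ]
  refine and_congr (forall₄_congr fun y _ j _ => ?_) (Set.EqOn.injOn_iff fun J hJ => by rw [h J hJ])
  rw [e fun s J => min 1 ((lev P s * Real.exp (-Eh L P J y) / P.th j) ^ 2),
    e fun s J => min 1 ((lev P s * Real.exp (-Eh L P J y) / P.th j) ^ 4)]

/-! ### part c -/

theorem Labc_prim : IsPrimitiveRoot P.cn P.qq := Complex.isPrimitiveRoot_exp P.qq (Nat.succ_ne_zero _)
theorem norm_cn : ‖P.cn‖ = 1 := by
  exact (Labc_prim P).norm'_eq_one (Nat.succ_ne_zero _)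
theorem cn_pow_qq : P.cn ^ P.qq = 1 := by
  exact (Labc_prim P).pow_eq_one
theorem cn_ne_one (h : 1 ≤ P.q0) : P.cn ≠ 1 := by
  exact (Labc_prim P).ne_one (Nat.lt_succ_of_le h)
theorem cn_pow_val_sub (a : ZMod (P.q0 + 1)) (m : ℤ) :
    P.cn ^ (a - (m : ZMod (P.q0 + 1))).val = P.cn ^ a.val * P.cn ^ (-m) := by
  have h0 : P.cn ≠ 0 := (Labc_prim P).ne_zero (Nat.succ_ne_zero _)
  have hd : ((P.q0 + 1 : ℕ) : ℤ) ∣ ((a - (m : ZMod (P.q0 + 1))).val : ℤ) - (a.val + -m) := by
    rw [← ZMod.intCast_zmod_eq_zero_iff_dvd]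
    push_cast
    rw [ZMod.natCast_zmod_val, ZMod.natCast_zmod_val]
    ring
  have h1 := ((Labc_prim P).zpow_eq_one_iff_dvd _).2 hd
  rw [zpow_sub₀ h0, div_eq_one_iff_eq (zpow_ne_zero _ h0), zpow_add₀ h0, zpow_natCast, zpow_natCast] at h1
  exact h1
theorem one_le_gmax : 1 ≤ P.gmax := le_max_left _ _

theorem conj_out_lsm (c : G) (hc : Commute c g) (J : Lab g) :
    (lsm g c hc J).out⁻¹ * g * (lsm g c hc J).out = J.out⁻¹ * g * J.out := by
  have h1 : (lsm g c hc J).out = (g ^ nu c hc J)⁻¹ * c * J.out := by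
    rw [mul_assoc, nu_spec c hc J, inv_mul_cancel_left]
  have h2 : Commute ((g ^ nu c hc J)⁻¹ * c) g := ((Commute.refl g).zpow_left _).inv_left.mul_left hc
  rw [h1, mul_inv_rev, mul_assoc, mul_assoc, ← mul_assoc g, ← h2.eq, mul_assoc _ g, inv_mul_cancel_left,
    mul_assoc]
theorem far_lsm (c : G) (hc : Commute c g) (J : Lab g) : far L P (lsm g c hc J) ↔ far L P J := by
  unfold far; rw [conj_out_lsm]
theorem chi_lsm (c : G) (hc : Commute c g) (J : Lab g) : chi L P (lsm g c hc J) = chi L P J := by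
  unfold chi
  by_cases h : far L P J
  · rw [if_pos h, if_pos ((far_lsm L P c hc J).2 h), conj_out_lsm]
  · rw [if_neg h, if_neg fun h' => h ((far_lsm L P c hc J).1 h')]
theorem chi_of_near {J : Lab g} (h : ¬ far L P J) : chi L P J = P.cn := if_neg h

variable {L P}
theorem Labc_spec (h : Valid L P) {J : Lab g} (hJ : far L P J) :
    CharSpec L P.Rs (J.out⁻¹ * g * J.out) (chi L P J) := by
  rw [chi, if_pos hJ]
  exact Classical.epsilon_spec (h.farc _ hJ)
theorem Labc_conj (a : G) (n : ℤ) : (a⁻¹ * g * a) ^ n = a⁻¹ * g ^ n * a := by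
  have := conj_zpow (i := n) (a := a⁻¹) (b := g)
  rwa [inv_inv] at this
theorem Labc_near (hg : Hyp L P g) {J : Lab g} (hJ : ¬ far L P J) : ¬ IsOfFinOrder g := by
  refine hg.resolve_right fun h => hJ (h _ ?_)
  exact isConj_iff.2 ⟨J.out⁻¹, by rw [inv_inv]⟩
theorem Valid.norm_chi (h : Valid L P) (J : Lab g) : ‖chi L P J‖ = 1 := by
  by_cases hJ : far L P J
  · exact (Labc_spec h hJ).1
  · rw [chi_of_near L P hJ, norm_cn]
theorem Valid.chi_ne_one (h : Valid L P) (J : Lab g) : chi L P J ≠ 1 := by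
  by_cases hJ : far L P J
  · intro e
    have := (Labc_spec h hJ).2.1
    rw [e, Complex.one_re] at this
    norm_num at this
  · rw [chi_of_near L P hJ]
    exact cn_ne_one P h.q0_pos
theorem Valid.norm_inv_chi_far (h : Valid L P) {J : Lab g} (hJ : far L P J) : ‖(chi L P J - 1)⁻¹‖ ≤ 1 := by
  obtain ⟨h1, h2, -⟩ := Labc_spec h hJ
  rw [norm_inv]
  refine inv_le_one_of_one_le₀ ?_
  have h3 : ‖chi L P J‖ ^ 2 = 1 := by rw [h1, one_pow]
  rw [Complex.sq_norm, Complex.normSq_apply] at h3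
  refine (abs_le_of_sq_le_sq' ?_ (norm_nonneg _)).2
  rw [Complex.sq_norm, Complex.normSq_apply]
  simp only [Complex.sub_re, Complex.sub_im, Complex.one_re, Complex.one_im]
  nlinarith
theorem Valid.norm_inv_chi (h : Valid L P) (J : Lab g) : ‖(chi L P J - 1)⁻¹‖ ≤ P.gmax := by
  by_cases hJ : far L P J
  · exact (h.norm_inv_chi_far hJ).trans (one_le_gmax P)
  · rw [chi_of_near L P hJ]
    exact le_max_right _ _
theorem Valid.chi_zpow_eq_one (h : Valid L P) (hg : Hyp L P g) (J : Lab g) {n : ℤ} (hn : g ^ n = 1) :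
    chi L P J ^ n = 1 := by
  by_cases hJ : far L P J
  · refine (Labc_spec h hJ).2.2.1 n ?_
    rw [Labc_conj, hn, mul_one, inv_mul_cancel]
  · have h0 : n = 0 := by
      by_contra h0
      exact Labc_near hg hJ (isOfFinOrder_iff_zpow_eq_one.2 ⟨n, h0, hn⟩)
    rw [h0, zpow_zero]
theorem Valid.chi_zpow_near (h : Valid L P) (hg : Hyp L P g) (J : Lab g) {j : G} (hj : lab g j = J) {n : ℤ}
    (hn : L.l (j⁻¹ * g ^ n * j) ≤ P.Rs) : ‖chi L P J ^ n - 1‖ ≤ 1 / 8 := by
  have e : j⁻¹ * g ^ n * j = (J.out⁻¹ * g * J.out) ^ n := by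
    rw [Labc_conj, expo_spec J hj]
    generalize expo J j = k
    group
  rw [e] at hn
  by_cases hJ : far L P J
  · exact (Labc_spec h hJ).2.2.2 n hn
  · rw [chi_of_near L P hJ]
    refine h.nearc _ (not_le.1 hJ) (fun hf => Labc_near hg hJ ?_) n hn
    obtain ⟨k, hk, hk1⟩ := isOfFinOrder_iff_zpow_eq_one.1 hf
    refine isOfFinOrder_iff_zpow_eq_one.2 ⟨k, hk, ?_⟩
    rw [Labc_conj, mul_assoc, inv_mul_eq_one, eq_comm, mul_eq_right] at hk1
    exact hk1
theorem Labc_ne (h : Valid L P) (J : Lab g) : chi L P J ≠ 0 :=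
  norm_pos_iff.1 (by rw [h.norm_chi]; exact one_pos)
theorem Labc_expo (h : Valid L P) (hg : Hyp L P g) (J : Lab g) (k : ℤ) :
    chi L P J ^ expo J (g ^ k * J.out) = chi L P J ^ k := by
  have h1 := expo_spec J ((lab_zpow k J.out).trans (lab_out J))
  have h2 : g ^ (expo J (g ^ k * J.out) - k) = 1 := by
    rw [zpow_sub, ← mul_right_cancel h1, mul_inv_cancel]
  have h3 := h.chi_zpow_eq_one hg J h2
  rwa [zpow_sub₀ (Labc_ne h J), div_eq_one_iff_eq (zpow_ne_zero _ (Labc_ne h J))] at h3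
theorem Valid.norm_zeta (h : Valid L P) (J : Lab g) (y : G) : ‖zeta L P J y‖ = 1 := by
  rw [zeta, norm_zpow, h.norm_chi, one_zpow]
theorem Valid.zeta_mul (h : Valid L P) (hg : Hyp L P g) (J : Lab g) (y : G) :
    zeta L P J (g * y) = chi L P J * zeta L P J y := by
  have h1 := npt_zpow L 1 J y
  rw [zpow_one] at h1
  have h2 : g * npt L J y = g ^ (1 + expo J (npt L J y)) * J.out := by
    rw [zpow_one_add, mul_assoc, ← expo_spec J (lab_npt L J y)]
  rw [zeta, zeta, h1, h2, Labc_expo h hg, zpow_one_add₀ (Labc_ne h J)]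
theorem Valid.zeta_lsm (h : Valid L P) (hg : Hyp L P g) (c : G) (hc : Commute c g) (J : Lab g) (y : G) :
    zeta L P (lsm g c hc J) (c * y) = chi L P J ^ nu c hc J * zeta L P J y := by
  have h2 : c * npt L J y = g ^ (expo J (npt L J y) + nu c hc J) * (lsm g c hc J).out := by
    rw [zpow_add, mul_assoc, ← nu_spec c hc J, ← mul_assoc, ← (hc.zpow_right _).eq, mul_assoc,
      ← expo_spec J (lab_npt L J y)]
  rw [zeta, zeta, npt_lsm, h2, Labc_expo h hg, chi_lsm, zpow_add₀ (Labc_ne h J), mul_comm]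
/-- coherence of the phases: the two nearest points are at distance `≤ 6ρ + 16ρ + 22ρ = Rs`. -/
theorem Valid.zeta_coh (h : Valid L P) (hg : Hyp L P g) {J : Lab g} {c y : G} (hJ : J ∈ UU L P g c)
    (hy : L.l (c⁻¹ * y) ≤ 16 * P.rho) : ‖zeta L P J y - zeta L P J c‖ ≤ 1 / 8 := by
  have e : (npt L J c)⁻¹ * g ^ (expo J (npt L J y) - expo J (npt L J c)) * npt L J c
      = (c⁻¹ * npt L J c)⁻¹ * ((c⁻¹ * y) * (y⁻¹ * npt L J y)) := by
    have h1 := expo_spec J (lab_npt L J y)
    have h2 := expo_spec J (lab_npt L J c)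
    generalize expo J (npt L J y) = a at h1 ⊢
    generalize expo J (npt L J c) = b at h2 ⊢
    rw [h1, h2]
    group
  have hl : L.l ((npt L J c)⁻¹ * g ^ (expo J (npt L J y) - expo J (npt L J c)) * npt L J c) ≤ P.Rs := by
    rw [e]
    have h1 := L.l_mul (c⁻¹ * npt L J c)⁻¹ ((c⁻¹ * y) * (y⁻¹ * npt L J y))
    have h2 := L.l_mul (c⁻¹ * y) (y⁻¹ * npt L J y)
    have h3 := dJ_lip L J y c
    have h4 := L.l_inv (c⁻¹ * y)
    have h5 := (mem_UU L P c J).1 hJ
    rw [mul_inv_rev, inv_inv] at h4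
    rw [L.l_inv, ← dJ_eq] at h1
    rw [← dJ_eq] at h2
    unfold Par.Rs
    omega
  have h1 := h.chi_zpow_near hg J (lab_npt L J c) hl
  have h2 : zeta L P J y - zeta L P J c
      = (chi L P J ^ (expo J (npt L J y) - expo J (npt L J c)) - 1) * zeta L P J c := by
    rw [zeta, zeta, sub_mul, one_mul, ← zpow_add₀ (Labc_ne h J), sub_add_cancel]
  rw [h2, norm_mul, h.norm_zeta, mul_one]
  exact h1
theorem Valid.norm_off (h : Valid L P) (o : Omg P g) (J : Lab g) : ‖off L P o J‖ = 1 := by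
  have _ := h
  unfold off
  split_ifs
  · exact norm_one
  · rw [norm_pow, norm_cn, one_pow]
theorem Valid.gch_ch (h : Valid L P) (o : Omg P g) (z : Lab g × Fin 2) :
    gch L P (ch L P o z) = (starRingEnd ℂ) ((chi L P z.1 - 1)⁻¹) := by
  have _ := h
  unfold gch ch
  by_cases hJ : far L P z.1
  · simp only [if_pos hJ, Option.elim_some]
  · simp only [if_neg hJ, Option.elim_none, chi_of_near L P hJ]
theorem chi_eq_of_ch_eq (o : Omg P g) {z z' : Lab g × Fin 2} (h : ch L P o z = ch L P o z') :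
    chi L P z.1 = chi L P z'.1 := by
  have h1 := congrArg Prod.fst h
  unfold ch at h1
  by_cases hJ : far L P z.1 <;> by_cases hJ' : far L P z'.1
  · simp only [if_pos hJ, if_pos hJ', Option.some.injEq] at h1
    rw [h1]
  · simp [hJ, hJ'] at h1
  · simp [hJ, hJ'] at h1
  · rw [chi_of_near L P hJ, chi_of_near L P hJ']
/-- only the `2 (k0 + 2)` near channels can have `‖gch‖ > 1` -/
theorem Valid.prod_gch_le (h : Valid L P) (S : Finset (Ch P g)) :
    ∏ c ∈ S, ‖gch L P c‖ ≤ P.gmax ^ (2 * (P.k0 + 2)) := by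
  classical
  rw [← Finset.prod_filter_mul_prod_filter_not S (fun c => c.1 = none)]
  have h1 : ∏ c ∈ S with ¬ c.1 = none, ‖gch L P c‖ ≤ 1 := by
    refine Finset.prod_le_one (fun _ _ => norm_nonneg _) fun c hc => ?_
    obtain ⟨J, hJ⟩ := Option.ne_none_iff_exists'.1 (Finset.mem_filter.1 hc).2
    unfold gch
    rw [hJ, Option.elim_some]
    split_ifs with hf
    · rw [Complex.norm_conj]
      exact h.norm_inv_chi_far hf
    · simp
  have h2 : ∏ c ∈ S with c.1 = none, ‖gch L P c‖ ≤ P.gmax ^ (S.filter fun c => c.1 = none).card := by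
    rw [← Finset.prod_const]
    refine Finset.prod_le_prod (fun _ _ => norm_nonneg _) fun c hc => ?_
    unfold gch
    rw [(Finset.mem_filter.1 hc).2, Option.elim_none, Complex.norm_conj]
    exact le_max_right _ _
  have h3 : (S.filter fun c => c.1 = none).card ≤ 2 * (P.k0 + 2) := by
    refine (Finset.card_le_card_of_injOn (t := Finset.univ) Prod.snd (fun _ _ => Finset.mem_univ _)
      fun c hc c' hc' e => ?_).trans (le_of_eq ?_)
    · exact Prod.ext ((Finset.mem_filter.1 hc).2.trans (Finset.mem_filter.1 hc').2.symm) e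
    · simp
  refine (mul_le_of_le_one_right (Finset.prod_nonneg fun _ _ => norm_nonneg _) h1).trans (h2.trans ?_)
  exact pow_le_pow_right₀ (one_le_gmax P) h3

end Crest.Agent.R192
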